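import Vale.Agent.P327.Code

/-!
# P327: the ring of binary power series, concretely
-/

namespace Vale.Agent.P327

open Set Filter Topology PiNat

/-- sum -/
def add (u v : X) : X := fun n => xor (u n) (v n)

/-- shift -/
def sh (u : X) : X := fun n => u (n + 1)

/-- prepend `false` -/
def tm (u : X) : X := fun n => Nat.casesOn n false u

/-- convolution product -/
def conv (β q : X) : X :=
  fun n => (List.range (n + 1)).foldr (fun i acc => xor (β i && q (n - i)) acc) false

@[simp] theorem tm_zero (u : X) : tm u 0 = false := rfl
@[simp] theorem tm_succ (u : X) (n : ℕ) : tm u (n + 1) = u n := rfl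
@[simp] theorem sh_tm (u : X) : sh (tm u) = u := rfl

theorem tm_sh {u : X} (h : u 0 = false) : tm (sh u) = u := by
  funext n
  cases n
  · exact h.symm
  · rfl

theorem add_comm' (u v : X) : add u v = add v u := by
  funext n; simp [add, Bool.xor_comm]

@[simp] theorem add_add_left (u v : X) : add u (add u v) = v := by
  funext n; simp [add]

@[simp] theorem add_add_right (u v : X) : add (add u v) v = u := by
  funext n; simp [add]

theorem cont_of_local {φ : X → X} (b : ℕ → ℕ)
    (h : ∀ n u v, (∀ i < b n, v i = u i) → φ v n = φ u n) : Continuous φ := by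
  refine continuous_pi fun n => IsLocallyConstant.continuous ?_
  rw [IsLocallyConstant.iff_exists_open]
  exact fun u => ⟨cylinder u (b n), isOpen_cyl _ _, self_mem_cylinder _ _, fun v hv => h n u v hv⟩

theorem cont_add {α : Type*} [TopologicalSpace α] {g h : α → X} (hg : Continuous g)
    (hh : Continuous h) : Continuous fun p => add (g p) (h p) := by
  refine continuous_pi fun n => ?_
  have : Continuous fun q : Bool × Bool => xor q.1 q.2 := continuous_of_discreteTopology
  exact this.comp (((continuous_apply n).comp hg).prodMk ((continuous_apply n).comp hh))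

theorem cont_sh : Continuous sh := continuous_pi fun n => continuous_apply (n + 1)

theorem cont_tm : Continuous tm := by
  refine continuous_pi fun n => ?_
  cases n
  · exact continuous_const
  · exact continuous_apply _

theorem open_sh : IsOpenMap sh := by
  intro U hU
  rw [isOpen_iff_forall_mem_open]
  rintro _ ⟨u, hu, rfl⟩
  obtain ⟨n, hn⟩ := exists_cyl hU hu
  refine ⟨cylinder (sh u) n, fun v hv => ⟨fun i => Nat.casesOn i (u 0) v, hn fun i hi => ?_, rfl⟩,
    isOpen_cyl _ _, self_mem_cylinder _ _⟩
  cases i
  · rfl
  · exact hv _ (by omega)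

theorem open_tm : IsOpenMap tm := by
  intro U hU
  rw [isOpen_iff_forall_mem_open]
  rintro _ ⟨u, hu, rfl⟩
  obtain ⟨n, hn⟩ := exists_cyl hU hu
  exact ⟨cylinder (tm u) (n + 1), fun v hv => ⟨sh v, hn fun i hi => hv (i + 1) (by omega),
    tm_sh (hv 0 (by omega))⟩, isOpen_cyl _ _, self_mem_cylinder _ _⟩

theorem open_addL (c : X) : IsOpenMap (add c) :=
  IsOpenMap.of_inverse (f' := add c) (cont_add continuous_const continuous_id)
    (add_add_left c) (add_add_left c)

theorem open_addR (c : X) : IsOpenMap fun u => add u c :=
  IsOpenMap.of_inverse (f' := fun u => add u c) (cont_add continuous_id continuous_const)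
    (fun u => add_add_right u c) (fun u => add_add_right u c)

theorem cont_shear : Continuous fun p : X × X => (p.1, add p.1 p.2) :=
  continuous_fst.prodMk (cont_add continuous_fst continuous_snd)

theorem open_shear : IsOpenMap fun p : X × X => (p.1, add p.1 p.2) :=
  IsOpenMap.of_inverse (f' := fun p : X × X => (p.1, add p.1 p.2)) cont_shear
    (fun p => by simp) (fun p => by simp)

theorem cont_shear' : Continuous fun p : X × X => (p.1, sh (add p.1 p.2)) :=
  continuous_fst.prodMk (cont_sh.comp (cont_add continuous_fst continuous_snd))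

theorem open_shear' : IsOpenMap fun p : X × X => (p.1, sh (add p.1 p.2)) :=
  (IsOpenMap.id.prodMap open_sh).comp open_shear

theorem conv_zero (β q : X) : conv β q 0 = (β 0 && q 0) := by simp [conv]

theorem conv_succ (β q : X) (n : ℕ) :
    conv β q (n + 1) = xor (β 0 && q (n + 1)) (conv (sh β) q n) := by
  unfold conv
  rw [List.range_succ_eq_map (n := n + 1), List.foldr_cons, List.foldr_map]
  simp [sh]

theorem conv_add (β q q' : X) : conv β (add q q') = add (conv β q) (conv β q') := by
  funext n
  induction n generalizing β with
  | zero => simp only [add, conv_zero]; cases β 0 <;> simp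
  | succ n ih =>
    simp only [add, conv_succ] at ih ⊢
    rw [ih]
    cases β 0 <;> cases q (n + 1) <;> cases q' (n + 1) <;> cases conv (sh β) q n <;> simp

theorem conv_lead (β q : X) {n : ℕ} (h : ∀ i < n, q i = false) : conv β q n = (β 0 && q n) := by
  induction n generalizing β with
  | zero => exact conv_zero β q
  | succ n ih => rw [conv_succ, ih _ fun i hi => h i (by omega), h n (by omega)]; simp

theorem conv_cyl (β : X) {q q' : X} {n : ℕ} (h : q' ∈ cylinder q n) :
    conv β q' ∈ cylinder (conv β q) n := by
  intro i hi
  have h0 : ∀ j < n, add q q' j = false := fun j hj => by simp [add, h j hj]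
  have := conv_lead β (add q q') (n := i) fun j hj => h0 j (by omega)
  rw [h0 i hi, conv_add] at this
  simp only [add, Bool.and_false] at this
  revert this
  cases conv β q i <;> cases conv β q' i <;> simp

theorem cont_conv (β : X) : Continuous (conv β) :=
  cont_of_local (fun n => n + 1) fun n _ _ h => conv_cyl β h n (Nat.lt_succ_self n)

theorem conv_shift (β q : X) :
    sh (add (conv β q) fun n => β 0 && q n) = conv (sh β) q := by
  funext n
  simp only [sh, add, conv_succ]
  cases β 0 <;> cases q (n + 1) <;> simp

theorem conv_inj {β : X} (hβ : β 0 = true) : Function.Injective (conv β) := by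
  intro q q' e
  have : ∀ n, ∀ i < n, add q q' i = false := by
    intro n
    induction n with
    | zero => exact fun i hi => absurd hi (Nat.not_lt_zero i)
    | succ n ih =>
      intro i hi
      rcases Nat.lt_succ_iff_lt_or_eq.1 hi with hi | rfl
      · exact ih i hi
      · have := conv_lead β (add q q') ih
        rw [conv_add, e, hβ] at this
        simpa [add] using this.symm
  funext n
  simpa [add] using this (n + 1) n (Nat.lt_succ_self n)

theorem conv_surj {β : X} (hβ : β 0 = true) : Function.Surjective (conv β) := by
  have hd : ∀ y n, ∃ q, conv β q ∈ cylinder y n := by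
    intro y n
    induction n with
    | zero => exact ⟨y, by simp⟩
    | succ n ih =>
      obtain ⟨q, hq⟩ := ih
      let δ : X := fun i => decide (i = n) && xor (conv β q n) (y n)
      have hδ : ∀ i < n, δ i = false := fun i hi => by simp [δ, hi.ne]
      refine ⟨add q δ, fun i hi => ?_⟩
      rw [conv_add]
      simp only [add]
      rcases Nat.lt_succ_iff_lt_or_eq.1 hi with hi | rfl
      · rw [conv_lead β δ fun j hj => hδ j (by omega), hδ i hi, hq i hi]; simp
      · rw [conv_lead β δ hδ, hβ]; simp [δ]
  have hc : IsClosed (range (conv β)) := (isCompact_range (cont_conv β)).isClosed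
  intro y
  by_contra hy
  obtain ⟨n, hn⟩ := exists_cyl hc.isOpen_compl (u := y) hy
  obtain ⟨q, hq⟩ := hd y n
  exact hn hq ⟨q, rfl⟩

theorem open_conv {β : X} (hβ : β 0 = true) : IsOpenMap (conv β) :=
  (isHomeomorph_iff_continuous_bijective.2 ⟨cont_conv β, conv_inj hβ, conv_surj hβ⟩).isOpenMap

/-! ### computability -/

variable {α : Type*} {D : Set α} {g h h₁ h₂ : α → X}

theorem URed.add (H₁ : URed D g h₁) (H₂ : URed D g h₂) : URed D g fun p => add (h₁ p) (h₂ p) :=
  H₁.op H₂ xor

theorem TL.add {A B C : X} (H₁ : TL A C) (H₂ : TL B C) : TL (add A B) C := H₁.op H₂ xor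

theorem TL.sh {A C : X} (H : TL A C) : TL (sh A) C := H.idx Primrec.succ

theorem TL.cons {A C : X} (H : TL A C) (c : Bool) : TL (fun n => Nat.casesOn n c A) C := by
  have := H.map₂ H (op := fun n q => if n = 0 then c else q.1)
    (Primrec.ite (Primrec.eq.comp Primrec.fst (Primrec.const 0)) (Primrec.const c)
      (Primrec.fst.comp Primrec.snd)) Primrec.pred Primrec.pred
  convert this using 1
  funext n
  cases n <;> simp

theorem TL.conv {A B C : X} (H₁ : TL A C) (H₂ : TL B C) : TL (conv A B) C := by
  have := H₁.tt₂ H₂ (φ := fun q n => (List.range (n + 1)).foldr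
    (fun i acc => xor (q.1.getD i false && q.2.getD (n - i) false) acc) false) ?_ Primrec.succ
  · convert this using 1
    funext n
    unfold P327.conv
    refine List.foldr_ext _ _ _ fun i hi acc => ?_
    have := List.mem_range.1 hi
    simp only [Nat.succ_eq_add_one]
    rw [getD_res _ this, getD_res _ (by omega)]
  · refine Primrec.list_foldr (f := fun p : (List Bool × List Bool) × ℕ => List.range (p.2 + 1))
      (g := fun _ => false)
      (h := fun p q => xor (p.1.1.getD q.1 false && p.1.2.getD (p.2 - q.1) false) q.2)
      (Primrec.list_range.comp (Primrec.succ.comp Primrec.snd)) (Primrec.const _) ?_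
    refine (Primrec.dom_bool₂ xor).comp (Primrec.and.comp ?_ ?_) (Primrec.snd.comp Primrec.snd)
    · exact (Primrec.list_getD false).comp (Primrec.fst.comp (Primrec.fst.comp Primrec.fst))
        (Primrec.fst.comp Primrec.snd)
    · exact (Primrec.list_getD false).comp (Primrec.snd.comp (Primrec.fst.comp Primrec.fst))
        (Primrec.nat_sub.comp (Primrec.snd.comp Primrec.fst) (Primrec.fst.comp Primrec.snd))

end Vale.Agent.P327
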