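import Mathlib

/-!
# P327: the Turing degrees of subsets of `ℕ`
-/

namespace Vale.Agent.P327

open Classical in
/-- The characteristic function of `A ⊆ ℕ`, as a (total) partial function `ℕ →. ℕ`. -/
noncomputable def chi (A : Set ℕ) : ℕ →. ℕ := fun n => Part.some (if n ∈ A then 1 else 0)

/-- `A ≤_T B`: the characteristic function of `A` is partial recursive relative to the oracle
given by the characteristic function of `B` (Mathlib's `TuringReducible`). -/
def TLe (A B : Set ℕ) : Prop := TuringReducible (chi A) (chi B)

/-- Turing equivalence of subsets of `ℕ`. -/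
def turingSetoid : Setoid (Set ℕ) where
  r A B := TLe A B ∧ TLe B A
  iseqv :=
    ⟨fun A => ⟨TuringReducible.refl (chi A), TuringReducible.refl (chi A)⟩,
     fun h => ⟨h.2, h.1⟩,
     fun h k => ⟨TuringReducible.trans h.1 k.1, TuringReducible.trans k.2 h.2⟩⟩

/-- The Turing degrees: equivalence classes of all subsets of `ℕ`. -/
def Degree : Type := Quotient turingSetoid

/-- The degree of a set. -/
def deg (A : Set ℕ) : Degree := Quotient.mk turingSetoid A

/-- The order of the Turing degrees. -/
def DLe (a b : Degree) : Prop := ∃ A B : Set ℕ, deg A = a ∧ deg B = b ∧ TLe A B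

end Vale.Agent.P327
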