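import Vale.Agent.P327.Comp
import Vale.Agent.P327.Defs

/-!
# P327: oracle recursiveness equals string-transformer reducibility
-/

namespace Vale.Agent.P327

/-- a real as an oracle -/
def orc (B : X) : ℕ →. ℕ := fun n => Part.some (cond (B n) 1 0)

/-- finite approximations of a partial function recursive in `B` -/
def Approx (B : X) (f : ℕ →. ℕ) : Prop :=
  ∃ φ : List Bool → ℕ →. ℕ, Partrec₂ φ ∧ (∀ k n v, v ∈ φ (res B k) n → v ∈ f n) ∧
    ∀ n v, v ∈ f n → ∃ K, ∀ k ≥ K, v ∈ φ (res B k) n

theorem approx_of_partrec (B : X) {f : ℕ →. ℕ} (hf : Nat.Partrec f) : Approx B f :=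
  ⟨fun _ n => f n, (Partrec.nat_iff.2 hf).comp Computable.snd, fun _ _ _ h => h,
    fun _ _ h => ⟨0, fun _ _ => h⟩⟩

theorem approx_orc (B : X) : Approx B (orc B) := by
  refine ⟨fun σ n => ((σ[n]?).map fun b => cond b 1 0 : Option ℕ), ?_, ?_, ?_⟩
  · refine Computable.ofOption (Primrec.to_comp ?_)
    exact Primrec.option_map Primrec.list_getElem?
      ((Primrec.dom_bool fun b => cond b 1 0).comp Primrec.snd)
  · intro k n v hv
    beta_reduce at hv
    rw [getElem?_res] at hv
    split_ifs at hv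
    · simpa [orc] using hv
    · simp at hv
  · intro n v hv
    refine ⟨n + 1, fun k hk => ?_⟩
    beta_reduce
    rw [getElem?_res, if_pos (show n < k from hk)]
    simpa [orc] using hv

theorem approx_of_rec {B : X} {f : ℕ →. ℕ} (hf : Nat.RecursiveIn {orc B} f) : Approx B f := by
  induction hf with
  | zero => exact approx_of_partrec B Nat.Partrec.zero
  | succ => exact approx_of_partrec B Nat.Partrec.succ
  | left => exact approx_of_partrec B Nat.Partrec.left
  | right => exact approx_of_partrec B Nat.Partrec.right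
  | oracle g hg => rw [Set.mem_singleton_iff.1 hg]; exact approx_orc B
  | @pair f h _ _ ihf ihh =>
    obtain ⟨φ, hφ, s1, c1⟩ := ihf
    obtain ⟨ψ, hψ, s2, c2⟩ := ihh
    refine ⟨fun σ n => (φ σ n).bind fun a => (ψ σ n).map fun b => Nat.pair a b, ?_, ?_, ?_⟩
    · refine Partrec.bind hφ (Partrec.map (hψ.comp (Computable.fst.comp Computable.fst)
        (Computable.snd.comp Computable.fst)) ?_)
      exact (Primrec₂.natPair.comp (Primrec.snd.comp Primrec.fst) Primrec.snd).to_comp
    · intro k n v hv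
      simp only [Part.mem_bind_iff, Part.mem_map_iff] at hv
      obtain ⟨a, ha, b, hb, rfl⟩ := hv
      simp only [Seq.seq, Part.map_eq_map, Part.bind_eq_bind, Part.mem_bind_iff, Part.mem_map_iff]
      exact ⟨_, ⟨a, s1 _ _ _ ha, rfl⟩, b, s2 _ _ _ hb, rfl⟩
    · intro n v hv
      simp only [Seq.seq, Part.map_eq_map, Part.bind_eq_bind, Part.mem_bind_iff,
        Part.mem_map_iff] at hv
      obtain ⟨_, ⟨a, ha, rfl⟩, b, hb, rfl⟩ := hv
      obtain ⟨K1, hK1⟩ := c1 n a ha
      obtain ⟨K2, hK2⟩ := c2 n b hb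
      refine ⟨max K1 K2, fun k hk => ?_⟩
      simp only [Part.mem_bind_iff, Part.mem_map_iff]
      exact ⟨a, hK1 k (le_of_max_le_left hk), b, hK2 k (le_of_max_le_right hk), rfl⟩
  | @comp f h _ _ ihf ihh =>
    obtain ⟨φ, hφ, s1, c1⟩ := ihf
    obtain ⟨ψ, hψ, s2, c2⟩ := ihh
    refine ⟨fun σ n => (ψ σ n).bind fun a => φ σ a, ?_, ?_, ?_⟩
    · exact Partrec.bind hψ (hφ.comp (Computable.fst.comp Computable.fst) Computable.snd)
    · intro k n v hv
      simp only [Part.mem_bind_iff] at hv
      obtain ⟨a, ha, hb⟩ := hv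
      exact Part.mem_bind_iff.2 ⟨a, s2 _ _ _ ha, s1 _ _ _ hb⟩
    · intro n v hv
      obtain ⟨a, ha, hb⟩ := Part.mem_bind_iff.1 hv
      obtain ⟨K1, hK1⟩ := c1 a v hb
      obtain ⟨K2, hK2⟩ := c2 n a ha
      refine ⟨max K1 K2, fun k hk => ?_⟩
      simp only [Part.mem_bind_iff]
      exact ⟨a, hK2 k (le_of_max_le_right hk), hK1 k (le_of_max_le_left hk)⟩
  | @prec f h _ _ ihf ihh =>
    obtain ⟨φ, hφ, s1, c1⟩ := ihf
    obtain ⟨ψ, hψ, s2, c2⟩ := ihh
    refine ⟨fun σ p => Nat.rec (φ σ p.unpair.1)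
      (fun y IH => IH.bind fun i => ψ σ (Nat.pair p.unpair.1 (Nat.pair y i))) p.unpair.2,
      ?_, ?_, ?_⟩
    · refine Partrec.nat_rec (f := fun x : List Bool × ℕ => x.2.unpair.2)
        (g := fun x => φ x.1 x.2.unpair.1)
        (h := fun x q => ψ x.1 (Nat.pair x.2.unpair.1 (Nat.pair q.1 q.2))) ?_ ?_ ?_
      · exact (Primrec.snd.comp (Primrec.unpair.comp Primrec.snd)).to_comp
      · exact hφ.comp Computable.fst (Primrec.fst.comp (Primrec.unpair.comp Primrec.snd)).to_comp
      · refine hψ.comp (Computable.fst.comp Computable.fst) (Primrec.to_comp ?_)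
        exact Primrec₂.natPair.comp
          (Primrec.fst.comp (Primrec.unpair.comp (Primrec.snd.comp Primrec.fst)))
          (Primrec₂.natPair.comp (Primrec.fst.comp Primrec.snd) (Primrec.snd.comp Primrec.snd))
    · intro k p v hv
      simp only at hv ⊢
      generalize p.unpair.2 = n at hv ⊢
      generalize p.unpair.1 = a at hv ⊢
      induction n generalizing v with
      | zero => exact s1 _ _ _ hv
      | succ n ih =>
        simp only [Part.mem_bind_iff] at hv
        obtain ⟨i, hi, hv⟩ := hv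
        simp only [Part.bind_eq_bind, Part.mem_bind_iff]
        exact ⟨i, ih i hi, s2 _ _ _ hv⟩
    · intro p v hv
      simp only at hv ⊢
      generalize p.unpair.2 = n at hv ⊢
      generalize p.unpair.1 = a at hv ⊢
      induction n generalizing v with
      | zero => exact c1 _ _ hv
      | succ n ih =>
        simp only [Part.bind_eq_bind, Part.mem_bind_iff] at hv
        obtain ⟨i, hi, hv⟩ := hv
        obtain ⟨K1, hK1⟩ := ih i hi
        obtain ⟨K2, hK2⟩ := c2 _ _ hv
        refine ⟨max K1 K2, fun k hk => ?_⟩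
        simp only [Part.mem_bind_iff]
        exact ⟨i, hK1 k (le_of_max_le_left hk), hK2 k (le_of_max_le_right hk)⟩
  | @rfind f _ ihf =>
    obtain ⟨φ, hφ, s1, c1⟩ := ihf
    refine ⟨fun σ a => Nat.rfind fun n => (φ σ (Nat.pair a n)).map fun m => decide (m = 0),
      ?_, ?_, ?_⟩
    · refine Partrec.rfind (p := fun (x : List Bool × ℕ) n =>
        (φ x.1 (Nat.pair x.2 n)).map fun m => decide (m = 0)) ?_
      refine Partrec.map (hφ.comp (Computable.fst.comp Computable.fst)
        (Primrec₂.natPair.comp (Primrec.snd.comp Primrec.fst) Primrec.snd).to_comp) ?_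
      exact ((Primrec.eq.comp Primrec.snd (Primrec.const 0)).decide).to_comp
    · intro k a v hv
      obtain ⟨h1, h2⟩ := Nat.mem_rfind.1 hv
      obtain ⟨m, hm, e⟩ := (Part.mem_map_iff _).1 h1
      refine Nat.mem_rfind.2 ⟨(Part.mem_map_iff _).2 ⟨m, s1 _ _ _ hm, e⟩, fun {j} hj => ?_⟩
      obtain ⟨m, hm, e⟩ := (Part.mem_map_iff _).1 (h2 hj)
      exact (Part.mem_map_iff _).2 ⟨m, s1 _ _ _ hm, e⟩
    · intro a v hv
      obtain ⟨h1, h2⟩ := Nat.mem_rfind.1 hv
      obtain ⟨m, hm, e⟩ := (Part.mem_map_iff _).1 h1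
      obtain ⟨K1, hK1⟩ := c1 _ _ hm
      have : ∀ N ≤ v, ∃ K, ∀ k ≥ K, ∀ j < N,
          false ∈ (φ (res B k) (Nat.pair a j)).map fun m => decide (m = 0) := by
        intro N
        induction N with
        | zero => exact fun _ => ⟨0, fun _ _ j hj => absurd hj (Nat.not_lt_zero j)⟩
        | succ N ih =>
          intro hN
          obtain ⟨K, hK⟩ := ih (by omega)
          obtain ⟨m', hm', e'⟩ := (Part.mem_map_iff _).1 (h2 (show N < v by omega))
          obtain ⟨K', hK'⟩ := c1 _ _ hm'
          refine ⟨max K K', fun k hk j hj => ?_⟩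
          rcases Nat.lt_succ_iff_lt_or_eq.1 hj with hj | rfl
          · exact hK k (le_of_max_le_left hk) j hj
          · exact (Part.mem_map_iff _).2 ⟨m', hK' k (le_of_max_le_right hk), e'⟩
      obtain ⟨K2, hK2⟩ := this v le_rfl
      refine ⟨max K1 K2, fun k hk => ?_⟩
      exact Nat.mem_rfind.2 ⟨(Part.mem_map_iff _).2 ⟨m, hK1 k (le_of_max_le_left hk), e⟩,
        fun {j} hj => hK2 k (le_of_max_le_right hk) j hj⟩

theorem tl_of_rec {A B : X} (h : Nat.RecursiveIn {orc B} (orc A)) : TL A B := by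
  obtain ⟨φ, hφ, s1, c1⟩ := approx_of_rec h
  obtain ⟨c, hc⟩ := Nat.Partrec.Code.exists_code.1 hφ
  have hev : ∀ σ n v, v ∈ c.eval (Encodable.encode (σ, n)) ↔ v ∈ φ σ n := by
    intro σ n v
    rw [hc]
    simp
  refine TL.of_sred (w := fun σ q =>
    (Nat.Partrec.Code.evaln q.1 c (Encodable.encode (σ, q.2))).map fun v => decide (v = 1))
    ?_ ⟨?_, ?_⟩
  · refine Primrec.option_map ?_ ((Primrec.eq.comp Primrec.snd (Primrec.const 1)).decide)
    exact Nat.Partrec.Code.primrec_evaln.comp (Primrec.pair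
      (Primrec.pair (Primrec.fst.comp Primrec.snd) (Primrec.const c))
      (Primrec.encode.comp (Primrec.pair Primrec.fst (Primrec.snd.comp Primrec.snd))))
  · intro k s n v hv
    simp only [Option.map_eq_some_iff] at hv
    obtain ⟨u, hu, rfl⟩ := hv
    have := s1 _ _ _ ((hev _ _ _).1 (Nat.Partrec.Code.evaln_sound hu))
    simp only [orc, Part.mem_some_iff] at this
    rw [this]
    cases A n <;> simp
  · intro n
    obtain ⟨K, hK⟩ := c1 n (cond (A n) 1 0) (by simp [orc])
    obtain ⟨s, hs⟩ := Nat.Partrec.Code.evaln_complete.1 ((hev _ _ _).2 (hK K le_rfl))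
    refine ⟨K, s, ?_⟩
    simp only
    rw [Option.mem_def.1 hs]
    cases A n <;> simp

theorem rec_prim {O : Set (ℕ →. ℕ)} {f : ℕ → ℕ} (hf : Primrec f) :
    Nat.RecursiveIn O (fun n => Part.some (f n)) :=
  Nat.Primrec.recursiveIn (Primrec.nat_iff.1 hf)

theorem rec_comp {O : Set (ℕ →. ℕ)} {f g : ℕ → ℕ}
    (hf : Nat.RecursiveIn O (fun n => Part.some (f n)))
    (hg : Nat.RecursiveIn O (fun n => Part.some (g n))) :
    Nat.RecursiveIn O (fun n => Part.some (f (g n))) :=
  (Nat.RecursiveIn.comp hf hg).of_eq fun n => by simp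

theorem rec_pair {O : Set (ℕ →. ℕ)} {f g : ℕ → ℕ}
    (hf : Nat.RecursiveIn O (fun n => Part.some (f n)))
    (hg : Nat.RecursiveIn O (fun n => Part.some (g n))) :
    Nat.RecursiveIn O (fun n => Part.some (Nat.pair (f n) (g n))) :=
  (Nat.RecursiveIn.pair hf hg).of_eq fun n => by simp [Seq.seq]

/-- decoding of strings -/
def dec (n : ℕ) : List Bool := (Encodable.decode (α := List Bool) n).getD []

theorem primrec_dec : Primrec dec := Primrec.option_getD.comp Primrec.decode (Primrec.const [])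

@[simp] theorem dec_encode (σ : List Bool) : dec (Encodable.encode σ) = σ := by simp [dec]

theorem rec_res (B : X) :
    Nat.RecursiveIn {orc B} (fun k => Part.some (Encodable.encode (res B k))) := by
  have ho : Nat.RecursiveIn {orc B} (fun n => Part.some (cond (B n) 1 0)) :=
    Nat.RecursiveIn.oracle _ rfl
  have hstep : Primrec fun x : ℕ =>
      Encodable.encode (dec x.unpair.1 ++ [decide (x.unpair.2 = 1)]) :=
    Primrec.encode.comp (Primrec.list_concat.comp
      (primrec_dec.comp (Primrec.fst.comp Primrec.unpair))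
      ((Primrec.eq.comp (Primrec.snd.comp Primrec.unpair) (Primrec.const 1)).decide))
  have h1 : Primrec fun x : ℕ => x.unpair.2.unpair.2 :=
    Primrec.snd.comp (Primrec.unpair.comp (Primrec.snd.comp Primrec.unpair))
  have h2 : Primrec fun x : ℕ => x.unpair.2.unpair.1 :=
    Primrec.fst.comp (Primrec.unpair.comp (Primrec.snd.comp Primrec.unpair))
  have hh := rec_comp (rec_prim hstep) (rec_pair (rec_prim h1) (rec_comp ho (rec_prim h2)))
  have hp := Nat.RecursiveIn.prec (rec_prim (O := {orc B})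
    (Primrec.const (Encodable.encode ([] : List Bool)))) hh
  have hq : Primrec fun k : ℕ => Nat.pair 0 k := Primrec₂.natPair.comp (Primrec.const 0) Primrec.id
  refine (Nat.RecursiveIn.comp hp (rec_prim hq)).of_eq fun k => ?_
  simp only [Part.bind_eq_bind, Part.bind_some, Nat.unpair_pair]
  induction k with
  | zero => simp [res]
  | succ k ih =>
    simp only [ih, Part.bind_some, Nat.unpair_pair, dec_encode, res_succ]
    cases B k <;> simp

theorem rec_of_tl {A B : X} (h : TL A B) : Nat.RecursiveIn {orc B} (orc A) := by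
  obtain ⟨f, hf, H⟩ := h
  have hu1 : Primrec fun x : ℕ => x.unpair.1 := Primrec.fst.comp Primrec.unpair
  have hu2 : Primrec fun x : ℕ => x.unpair.2 := Primrec.snd.comp Primrec.unpair
  have hbase := rec_pair (rec_prim (O := {orc B}) hu1) (rec_comp (rec_res B) (rec_prim hu2))
  have hg : Primrec fun x : ℕ => if x.unpair.1 < (f (dec x.unpair.2)).length then 0 else 1 :=
    Primrec.ite (Primrec.nat_lt.comp hu1 (Primrec.list_length.comp (hf.comp (primrec_dec.comp hu2))))
      (Primrec.const 0) (Primrec.const 1)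
  have hv : Primrec fun x : ℕ => cond ((f (dec x.unpair.2)).getD x.unpair.1 false) 1 0 :=
    Primrec.cond ((Primrec.list_getD false).comp (hf.comp (primrec_dec.comp hu2)) hu1)
      (Primrec.const 1) (Primrec.const 0)
  have hfind := Nat.RecursiveIn.rfind (rec_comp (rec_prim hg) hbase)
  have hval := rec_comp (rec_prim hv) hbase
  have hall := Nat.RecursiveIn.comp hval
    (Nat.RecursiveIn.pair (rec_prim (O := {orc B}) Primrec.id) hfind)
  refine hall.of_eq fun n => ?_
  obtain ⟨K, hK⟩ := H.2 (n + 1)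
  obtain ⟨k, hk, -⟩ := Nat.rfind_min' (p := fun k => decide (n < (f (res B k)).length)) (m := K)
    (by simpa using (show n < _ from hK K le_rfl))
  have hk2 := Nat.rfind_spec hk
  have hlt : n < (f (res B k)).length := by simpa using hk2
  refine Part.eq_some_iff.2 (Part.mem_bind_iff.2 ⟨Nat.pair n k, ?_, ?_⟩)
  · refine Part.mem_bind_iff.2 ⟨Nat.pair n, (Part.mem_map_iff _).2 ⟨n, Part.mem_some _, rfl⟩,
      (Part.mem_map_iff _).2 ⟨k, ?_, rfl⟩⟩
    convert hk using 3
    simp
    rfl
  · simp only [Nat.unpair_pair, dec_encode]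
    rw [H.1 k, getD_res _ hlt]
    exact Part.mem_some _

open Classical in
/-- a set as a real -/
noncomputable def toB (A : Set ℕ) : X := fun n => decide (n ∈ A)

theorem chi_eq (A : Set ℕ) : chi A = orc (toB A) := by
  funext n
  by_cases h : n ∈ A <;> simp [chi, orc, toB, h]

theorem tle_iff (A B : Set ℕ) : TLe A B ↔ TL (toB A) (toB B) := by
  unfold TLe TuringReducible
  rw [RecursiveIn.iff_nat, chi_eq, chi_eq]
  exact ⟨tl_of_rec, rec_of_tl⟩

theorem toB_surj (u : X) : toB {n | u n = true} = u := by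
  funext n
  simp [toB]

end Vale.Agent.P327
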