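import Vale.Agent.P327.Topo

/-!
# P327: coding reals into the degree structure; countable Borel cover of an automorphism
-/

namespace Vale.Agent.P327

open Set Filter Topology PiNat

/-- column `m` -/
def col (G : X) (m : ℕ) : X := fun j => G (Nat.pair m j)

/-- column `i` is taken from `G` if `Y i` holds and from `H` otherwise -/
def code (G H Y : X) : X := fun n => cond (Y n.unpair.1) (G n) (H n)

theorem meagre_of_cyl₂ {S : Set (X × X)}
    (h : ∀ u v n, ∃ u' ∈ cylinder u n, ∃ v' ∈ cylinder v n, ∃ m,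
      ∀ a ∈ cylinder u' m, ∀ b ∈ cylinder v' m, (a, b) ∉ S) : IsMeagre S := by
  refine IsNowhereDense.isMeagre ?_
  rw [IsNowhereDense, eq_empty_iff_forall_notMem]
  rintro ⟨u, v⟩ hu
  obtain ⟨n, hn⟩ := exists_cyl₂ isOpen_interior hu
  obtain ⟨u', hu', v', hv', m, hm⟩ := h u v n
  have : (u', v') ∈ closure S := interior_subset (hn _ hu' _ hv')
  obtain ⟨⟨a, b⟩, hw, hw'⟩ := mem_closure_iff.1 this _ ((isOpen_cyl u' m).prod (isOpen_cyl v' m))
    ⟨self_mem_cylinder u' m, self_mem_cylinder v' m⟩
  exact hm a hw.1 b hw.2 hw'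

theorem code_step (f : List Bool → List Bool) {m N : ℕ} (hm : m < N) (s : X) (G H : X)
    (hsym : ∀ x, N ≤ x.unpair.1 → G x = H x) (n : ℕ) :
    ∃ G' ∈ cylinder G n, ∃ H' ∈ cylinder H n, (∀ x, N ≤ x.unpair.1 → G' x = H' x) ∧ ∃ n' ≥ n,
      ∀ a ∈ cylinder G' n', ∀ b ∈ cylinder H' n', ∀ Y : X, (∀ i < N, Y i = s i) → Y m = false →
        ¬ Lim f (code a b Y) (col a m) := by
  by_cases hc : ∃ G₁ ∈ cylinder G n, ∃ H₁ ∈ cylinder H n, (∀ x, N ≤ x.unpair.1 → G₁ x = H₁ x) ∧
      ∃ k v, (f (res (code G₁ H₁ s) k))[n]? = some v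
  · obtain ⟨G₁, hG₁, H₁, hH₁, hs₁, k, v, hv⟩ := hc
    have hx : n ≤ Nat.pair m n := Nat.right_le_pair m n
    have hupd : ∀ i, i.unpair.1 ≠ m → Function.update G₁ (Nat.pair m n) (!v) i = G₁ i := by
      intro i hi
      refine Function.update_of_ne ?_ _ _
      rintro rfl
      simp at hi
    refine ⟨Function.update G₁ (Nat.pair m n) (!v), fun i hi => ?_, H₁, hH₁, fun x hx' => ?_,
      max n (max k (Nat.pair m n + 1)), le_max_left _ _, fun a ha b hb Y hY hYm hlim => ?_⟩
    · rw [Function.update_of_ne (by omega)]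
      exact hG₁ i hi
    · rw [hupd x (by omega)]
      exact hs₁ x hx'
    · have e : res (code a b Y) k = res (code G₁ H₁ s) k := by
        refine res_congr fun i hi => ?_
        have hi' : i < max n (max k (Nat.pair m n + 1)) := by omega
        have ea := ha i hi'
        have eb := hb i hi'
        unfold code
        by_cases hN : i.unpair.1 < N
        · rw [← hY _ hN]
          cases hYi : Y i.unpair.1
          · exact eb
          · rw [hupd i (by rintro h; rw [h, hYm] at hYi; simp at hYi)] at ea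
            exact ea
        · rw [hupd i (by omega)] at ea
          rw [ea, eb, hs₁ i (by omega)]
          simp
      rw [← e] at hv
      have h1 := hlim.sound hv
      have h2 := ha (Nat.pair m n) (by omega)
      simp only [col] at h1
      rw [h2] at h1
      simp at h1
  · refine ⟨G, self_mem_cylinder _ _, H, self_mem_cylinder _ _, hsym, n, le_rfl,
      fun a ha b hb Y hY _ hlim => hc ?_⟩
    refine ⟨fun i => if N ≤ i.unpair.1 then code a b Y i else a i, fun i hi => ?_,
      fun i => if N ≤ i.unpair.1 then code a b Y i else b i, fun i hi => ?_, fun x hx => ?_, ?_⟩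
    · simp only
      split_ifs with h
      · unfold code
        rw [ha i hi, hb i hi, hsym i h]; simp
      · exact ha i hi
    · simp only
      split_ifs with h
      · unfold code
        rw [ha i hi, hb i hi, hsym i h]; simp
      · exact hb i hi
    · simp [hx]
    · obtain ⟨K, hK⟩ := hlim.ev n
      refine ⟨K, col a m n, ?_⟩
      rw [← hK K le_rfl]
      congr 3
      funext i
      simp only [code]
      split_ifs with h
      · simp
      · rw [hY _ (by omega)]

theorem meagre_code (f : List Bool → List Bool) (m : ℕ) :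
    IsMeagre {p : X × X | ∃ Y : X, Y m = false ∧ Lim f (code p.1 p.2 Y) (col p.1 m)} := by
  classical
  refine meagre_of_cyl₂ fun G H n => ?_
  set N := max n (m + 1) with hN
  have hm : m < N := by omega
  let e : (Fin N → Bool) → X := fun t i => if h : i < N then t ⟨i, h⟩ else false
  have key : ∀ T : Finset (Fin N → Bool), ∃ G' ∈ cylinder G n, ∃ H' ∈ cylinder H n,
      (∀ x, N ≤ x.unpair.1 → G' x = H' x) ∧ ∃ n' ≥ n, ∀ t ∈ T,
      ∀ a ∈ cylinder G' n', ∀ b ∈ cylinder H' n', ∀ Y : X, (∀ i < N, Y i = e t i) → Y m = false →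
        ¬ Lim f (code a b Y) (col a m) := by
    intro T
    induction T using Finset.induction_on with
    | empty =>
      refine ⟨G, self_mem_cylinder _ _, fun x => if N ≤ x.unpair.1 then G x else H x,
        fun i hi => ?_, fun x hx => by simp [hx], n, le_rfl, by simp⟩
      have := Nat.unpair_left_le i
      simp only
      rw [if_neg (by omega)]
    | insert t T _ ih =>
      obtain ⟨G₁, hG₁, H₁, hH₁, hs₁, n₁, hn₁, h₁⟩ := ih
      obtain ⟨G₂, hG₂, H₂, hH₂, hs₂, n₂, hn₂, h₂⟩ := code_step f hm (e t) G₁ H₁ hs₁ n₁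
      refine ⟨G₂, fun i hi => (hG₂ i (by omega)).trans (hG₁ i hi), H₂,
        fun i hi => (hH₂ i (by omega)).trans (hH₁ i hi), hs₂, n₂, by omega, fun t' ht' => ?_⟩
      rcases Finset.mem_insert.1 ht' with rfl | ht'
      · exact h₂
      · exact fun a ha b hb => h₁ t' ht' a (fun i hi => (ha i (by omega)).trans (hG₂ i hi)) b
          (fun i hi => (hb i (by omega)).trans (hH₂ i hi))
  obtain ⟨G', hG', H', hH', -, n', -, h⟩ := key Finset.univ
  refine ⟨G', hG', H', hH', n', fun a ha b hb ⟨Y, hYm, hY⟩ => ?_⟩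
  exact h (fun i => Y i) (Finset.mem_univ _) a ha b hb Y (fun i hi => by simp [e, hi]) hYm hY

theorem exists_coding : ∃ G H : X, ∀ Y : X, ∀ m, TL (col G m) (code G H Y) ↔ Y m = true := by
  have hM : IsMeagre (⋃ q : Fn × ℕ,
      {p : X × X | ∃ Y : X, Y q.2 = false ∧ Lim q.1.1 (code p.1 p.2 Y) (col p.1 q.2)}) :=
    isMeagre_iUnion fun q => meagre_code q.1.1 q.2
  obtain ⟨⟨G, H⟩, -, h⟩ := exists_of_not_meagre
    (not_isMeagre_of_isOpen isOpen_univ (univ_nonempty (α := X × X))) hM
  refine ⟨G, H, fun Y m => ⟨fun ⟨f, hf, hl⟩ => ?_, fun hY => ?_⟩⟩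
  · by_contra hY
    exact h (mem_iUnion.2 ⟨(⟨f, hf⟩, m), Y, by simpa using hY, hl⟩)
  · have := (TL.refl (code G H Y)).idx (i := fun j => Nat.pair m j)
      (Primrec₂.natPair.comp (Primrec.const m) Primrec.id)
    convert this using 1
    funext j
    simp [col, code, hY]

theorem tl_code (G H Y : X) : TL (code G H Y) (join Y (join G H)) :=
  TL.cond ((TL.left _ _).idx (Primrec.fst.comp Primrec.unpair))
    ((TL.left _ _).trans (TL.right _ _)) ((TL.right _ _).trans (TL.right _ _))

/-- An automorphism of the degrees, seen as a relation between reals. -/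
structure Aut (P : X → X → Prop) : Prop where
  tot : ∀ u, ∃ v, P u v
  sur : ∀ v, ∃ u, P u v
  ord : ∀ {u v u' v'}, P u v → P u' v' → (TL u u' ↔ TL v v')

theorem Aut.flip {P : X → X → Prop} (h : Aut P) : Aut fun v u => P u v :=
  ⟨h.sur, h.tot, fun a b => (h.ord a b).symm⟩

theorem Aut.join {P : X → X → Prop} (h : Aut P) {u v u' v' w z : X} (h₁ : P u v) (h₂ : P u' v')
    (h₃ : P w z) (hw : TL w (join u u')) : TL z (join v v') := by
  obtain ⟨y, hy⟩ := h.sur (P327.join v v')
  exact (h.ord h₃ hy).1 (hw.trans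
    (TL.join ((h.ord h₁ hy).2 (TL.left _ _)) ((h.ord h₂ hy).2 (TL.right _ _))))

/-- Every automorphism is covered by countably many Borel functions. -/
theorem Aut.cover {P : X → X → Prop} (h : Aut P) :
    ∃ F : Fn → X → X, (∀ i, Measurable (F i)) ∧ ∀ x, ∃ i, P x (F i x) := by
  classical
  obtain ⟨G, H, hGH⟩ := exists_coding
  obtain ⟨P₀, hP₀⟩ := h.sur (P327.join G H)
  choose Q hQ using fun n => h.sur (col G n)
  refine ⟨fun i x n => decide (TL (Q n) (lim i.1 (P327.join x P₀))), fun i => ?_, fun x => ?_⟩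
  · refine measurable_pi_lambda _ fun n => meas_decide ?_
    exact TL.meas ((meas_lim _).comp (meas_join measurable_id measurable_const)) measurable_const
  · obtain ⟨Y, hY⟩ := h.tot x
    obtain ⟨A, hA⟩ := h.sur (code G H Y)
    obtain ⟨f, hf, hl⟩ := h.flip.join hY hP₀ hA (tl_code G H Y)
    refine ⟨⟨f, hf⟩, ?_⟩
    convert hY using 1
    funext n
    simp only [hl.lim_eq, h.ord (hQ n) hA, hGH]
    simp

end Vale.Agent.P327
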