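import Mathlib

/-!
# P327: Turing functionals as primitive recursive string transformers
-/

namespace Vale.Agent.P327

abbrev X := ℕ → Bool

/-- The first `k` bits. -/
def res (B : X) (k : ℕ) : List Bool := (List.range k).map B

@[simp] theorem length_res (B : X) (k : ℕ) : (res B k).length = k := by simp [res]

theorem getElem?_res (B : X) (k n : ℕ) : (res B k)[n]? = if n < k then some (B n) else none := by
  unfold res
  split_ifs with h
  · simp [h]
  · simp [h]

theorem getD_res (B : X) {k n : ℕ} (h : n < k) : (res B k).getD n false = B n := by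
  rw [List.getD_eq_getElem?_getD, getElem?_res, if_pos h]; rfl

theorem take_res (B : X) (j k : ℕ) : (res B k).take j = res B (min j k) := by
  unfold res
  rw [← List.map_take, List.take_range]

theorem res_succ (B : X) (k : ℕ) : res B (k + 1) = res B k ++ [B k] := by
  simp [res, List.range_succ]

theorem res_congr {B C : X} {k : ℕ} (h : ∀ i < k, B i = C i) : res B k = res C k := by
  unfold res
  exact List.map_congr_left fun i hi => h i (List.mem_range.1 hi)

theorem eq_of_res_eq {B C : X} {k : ℕ} (h : res B k = res C k) {i : ℕ} (hi : i < k) :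
    B i = C i := by
  have := congrArg (fun l => l.getD i false) h
  simpa only [getD_res _ hi] using this

/-- The string transformer `f` computes `A` from the oracle `B`. -/
def Lim (f : List Bool → List Bool) (B A : X) : Prop :=
  (∀ k, f (res B k) = res A (f (res B k)).length) ∧
    ∀ N, ∃ K, ∀ k ≥ K, N ≤ (f (res B k)).length

/-- Search form of a reduction. -/
def SRed (w : List Bool → ℕ × ℕ → Option Bool) (B A : X) : Prop :=
  (∀ k s n v, w (res B k) (s, n) = some v → v = A n) ∧
    ∀ n, ∃ k s, w (res B k) (s, n) = some (A n)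

theorem Lim.comp {f g : List Bool → List Bool} {B A C : X} (hf : Lim f B A) (hg : Lim g A C) :
    Lim (g ∘ f) B C := by
  refine ⟨fun k => ?_, fun N => ?_⟩
  · simp only [Function.comp]
    rw [hf.1 k]
    exact hg.1 _
  · obtain ⟨K, hK⟩ := hg.2 N
    obtain ⟨K', hK'⟩ := hf.2 K
    refine ⟨K', fun k hk => ?_⟩
    simp only [Function.comp]
    rw [hf.1 k]
    exact hK _ (hK' k hk)

theorem Lim.id (B : X) : Lim id B B :=
  ⟨fun k => by simp, fun N => ⟨N, fun k hk => by simpa using hk⟩⟩

theorem Lim.sound {f : List Bool → List Bool} {B A : X} (hf : Lim f B A) {k n : ℕ} {v : Bool}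
    (h : (f (res B k))[n]? = some v) : v = A n := by
  rw [hf.1 k, getElem?_res] at h
  split_ifs at h
  exact (Option.some.inj h).symm

theorem Lim.ev {f : List Bool → List Bool} {B A : X} (hf : Lim f B A) (n : ℕ) :
    ∃ K, ∀ k ≥ K, (f (res B k))[n]? = some (A n) := by
  obtain ⟨K, hK⟩ := hf.2 (n + 1)
  refine ⟨K, fun k hk => ?_⟩
  rw [hf.1 k, getElem?_res, if_pos (show n < _ from hK k hk)]

theorem Lim.take {f : List Bool → List Bool} {B A : X} (hf : Lim f B A) {k m : ℕ}
    (h : m ≤ (f (res B k)).length) : (f (res B k)).take m = res A m := by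
  rw [hf.1 k, take_res, min_eq_left h]

theorem Lim.unique {f : List Bool → List Bool} {B A A' : X} (hf : Lim f B A) (hf' : Lim f B A') :
    A = A' := by
  funext n
  obtain ⟨K, hK⟩ := hf.ev n
  exact hf'.sound (hK K le_rfl)

/-- bounded search -/
def srch (w : List Bool → ℕ × ℕ → Option Bool) (σ : List Bool) (n : ℕ) : Option Bool :=
  (List.range σ.length).foldr
    (fun i acc => (w (σ.take i.unpair.1) (i.unpair.2, n)) <|> acc) none

theorem foldr_orElse_some {g : ℕ → Option Bool} {L : List ℕ} {v : Bool}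
    (h : L.foldr (fun i acc => g i <|> acc) none = some v) : ∃ i ∈ L, g i = some v := by
  induction L with
  | nil => simp at h
  | cons a L ih =>
    simp only [List.foldr_cons] at h
    cases hg : g a with
    | none =>
      rw [hg] at h
      obtain ⟨i, hi, hv⟩ := ih (by simpa using h)
      exact ⟨i, List.mem_cons_of_mem _ hi, hv⟩
    | some u =>
      rw [hg] at h
      exact ⟨a, List.mem_cons_self, by rw [hg]; simpa using h⟩

theorem foldr_orElse_isSome {g : ℕ → Option Bool} {L : List ℕ} {i : ℕ} (hi : i ∈ L)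
    (h : (g i).isSome) : (L.foldr (fun i acc => g i <|> acc) none).isSome := by
  induction L with
  | nil => simp at hi
  | cons a L ih =>
    simp only [List.foldr_cons]
    cases hg : g a with
    | none =>
      rcases List.mem_cons.1 hi with rfl | hi
      · rw [hg] at h; simp at h
      · simpa using ih hi
    | some u => simp

theorem primrec_srch {w : List Bool → ℕ × ℕ → Option Bool} (hw : Primrec₂ w) :
    Primrec₂ (srch w) := by
  unfold srch
  refine Primrec.list_foldr (f := fun p : List Bool × ℕ => List.range p.1.length)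
    (g := fun _ => (none : Option Bool))
    (h := fun p q => (w (p.1.take q.1.unpair.1) (q.1.unpair.2, p.2)) <|> q.2)
    (Primrec.list_range.comp (Primrec.list_length.comp Primrec.fst)) (Primrec.const _) ?_
  refine Primrec.option_orElse.comp (hw.comp ?_ ?_) (Primrec.snd.comp Primrec.snd)
  · exact Primrec.list_take.comp
      (Primrec.fst.comp (Primrec.unpair.comp (Primrec.fst.comp Primrec.snd)))
      (Primrec.fst.comp Primrec.fst)
  · exact Primrec.pair (Primrec.snd.comp (Primrec.unpair.comp (Primrec.fst.comp Primrec.snd)))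
      (Primrec.snd.comp Primrec.fst)

/-- the string transformer attached to a search reduction -/
def toLim (w : List Bool → ℕ × ℕ → Option Bool) (σ : List Bool) : List Bool :=
  (List.range ((List.range σ.length).findIdx fun i => !(srch w σ i).isSome)).map
    fun i => (srch w σ i).getD false

theorem primrec_toLim {w : List Bool → ℕ × ℕ → Option Bool} (hw : Primrec₂ w) :
    Primrec (toLim w) := by
  unfold toLim
  have hs := primrec_srch hw
  refine Primrec.list_map (Primrec.list_range.comp ?_) ?_
  · exact Primrec.list_findIdx (Primrec.list_range.comp Primrec.list_length)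
      (Primrec.not.comp (Primrec.option_isSome.comp hs))
  · exact Primrec.option_getD.comp hs (Primrec.const false)

theorem SRed.lim {w : List Bool → ℕ × ℕ → Option Bool} {B A : X} (h : SRed w B A) :
    Lim (toLim w) B A := by
  have hsound : ∀ k n v, srch w (res B k) n = some v → v = A n := by
    intro k n v hv
    obtain ⟨i, -, hi⟩ := foldr_orElse_some hv
    rw [take_res] at hi
    exact h.1 _ _ _ _ hi
  have hev : ∀ n, ∃ K, ∀ k ≥ K, (srch w (res B k) n).isSome := by
    intro n
    obtain ⟨k0, s0, h0⟩ := h.2 n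
    refine ⟨Nat.pair k0 s0 + 1, fun k hk => ?_⟩
    refine foldr_orElse_isSome (i := Nat.pair k0 s0) (by simp; omega) ?_
    have : k0 ≤ k := (Nat.left_le_pair k0 s0).trans (by omega)
    simp [take_res, min_eq_left this, h0]
  refine ⟨fun k => ?_, fun N => ?_⟩
  · unfold toLim
    rw [List.length_map, List.length_range]
    unfold res
    refine List.map_congr_left fun i hi => ?_
    have hi' := List.mem_range.1 hi
    have h1 := List.not_of_lt_findIdx hi'
    simp only [List.getElem_range, Bool.not_eq_eq_eq_not, Bool.not_false] at h1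
    obtain ⟨v, hv⟩ := Option.isSome_iff_exists.1 h1
    have := hsound k i v hv
    rw [hv, this]; rfl
  · have : ∀ N, ∃ K, ∀ k ≥ K, ∀ n < N, (srch w (res B k) n).isSome := by
      intro N
      induction N with
      | zero => exact ⟨0, fun _ _ n hn => absurd hn (Nat.not_lt_zero n)⟩
      | succ N ih =>
        obtain ⟨K, hK⟩ := ih
        obtain ⟨K', hK'⟩ := hev N
        refine ⟨max K K', fun k hk n hn => ?_⟩
        rcases Nat.lt_succ_iff_lt_or_eq.1 hn with hn | rfl
        · exact hK k (le_of_max_le_left hk) n hn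
        · exact hK' k (le_of_max_le_right hk)
    obtain ⟨K, hK⟩ := this N
    refine ⟨max K N, fun k hk => ?_⟩
    unfold toLim
    rw [List.length_map, List.length_range]
    by_contra hlt
    push Not at hlt
    have hk2 : N ≤ k := le_of_max_le_right hk
    have hlt2 : ((List.range (res B k).length).findIdx fun i => !(srch w (res B k) i).isSome)
        < (List.range (res B k).length).length := by
      simp only [List.length_range, length_res] at hlt ⊢
      omega
    have h1 := List.findIdx_getElem (w := hlt2)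
    simp only [List.getElem_range] at h1
    rw [hK k (le_of_max_le_left hk) _ hlt] at h1
    simp at h1

/-- `h p` is computable from `g p`, uniformly for `p ∈ D`. -/
def URed {α : Type*} (D : Set α) (g h : α → X) : Prop :=
  ∃ f, Primrec f ∧ ∀ p ∈ D, Lim f (g p) (h p)

/-- `A ≤_T B` in string-transformer form. -/
def TL (A B : X) : Prop := ∃ f, Primrec f ∧ Lim f B A

variable {α : Type*} {D : Set α} {g h h₁ h₂ h₃ : α → X}

theorem URed.of_sred {w : List Bool → ℕ × ℕ → Option Bool} (hw : Primrec₂ w)
    (H : ∀ p ∈ D, SRed w (g p) (h p)) : URed D g h :=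
  ⟨toLim w, primrec_toLim hw, fun p hp => (H p hp).lim⟩

theorem TL.of_sred {w : List Bool → ℕ × ℕ → Option Bool} (hw : Primrec₂ w) {A B : X}
    (H : SRed w B A) : TL A B :=
  ⟨toLim w, primrec_toLim hw, H.lim⟩

theorem URed.refl : URed D g g := ⟨id, Primrec.id, fun _ _ => Lim.id _⟩

theorem URed.trans (H₁ : URed D g h₁) (H₂ : URed D h₁ h₂) : URed D g h₂ := by
  obtain ⟨f, hf, H₁⟩ := H₁
  obtain ⟨f', hf', H₂⟩ := H₂
  exact ⟨f' ∘ f, hf'.comp hf, fun p hp => (H₁ p hp).comp (H₂ p hp)⟩

theorem URed.congr (H : URed D g h₁) (e : ∀ p ∈ D, h₁ p = h₂ p) : URed D g h₂ := by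
  obtain ⟨f, hf, H⟩ := H
  exact ⟨f, hf, fun p hp => e p hp ▸ H p hp⟩

theorem URed.of_lim {f : List Bool → List Bool} (hf : Primrec f)
    (H : ∀ p ∈ D, Lim f (g p) (h p)) : URed D g h := ⟨f, hf, H⟩

theorem URed.tl (H : URed D g h) {p : α} (hp : p ∈ D) : TL (h p) (g p) := by
  obtain ⟨f, hf, H⟩ := H
  exact ⟨f, hf, H p hp⟩

theorem TL.ured {A B : X} (H : TL A B) : URed D (fun _ => B) (fun _ => A) := by
  obtain ⟨f, hf, H⟩ := H
  exact ⟨f, hf, fun _ _ => H⟩

theorem TL.refl (A : X) : TL A A := ⟨id, Primrec.id, Lim.id _⟩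

theorem TL.trans {A B C : X} (H₁ : TL A B) (H₂ : TL B C) : TL A C := by
  obtain ⟨f, hf, H₁⟩ := H₁
  obtain ⟨f', hf', H₂⟩ := H₂
  exact ⟨f ∘ f', hf.comp hf', H₂.comp H₁⟩

/-- truth-table combination of two uniformly computable families -/
theorem URed.tt₂ (H₁ : URed D g h₁) (H₂ : URed D g h₂) {φ : List Bool × List Bool → ℕ → Bool}
    (hφ : Primrec₂ φ) {b : ℕ → ℕ} (hb : Primrec b) :
    URed D g (fun p n => φ (res (h₁ p) (b n), res (h₂ p) (b n)) n) := by
  obtain ⟨f₁, hf₁, H₁⟩ := H₁
  obtain ⟨f₂, hf₂, H₂⟩ := H₂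
  refine URed.of_sred (w := fun σ q => if b q.2 ≤ min (f₁ σ).length (f₂ σ).length then
    some (φ ((f₁ σ).take (b q.2), (f₂ σ).take (b q.2)) q.2) else none) ?_ fun p hp => ⟨?_, ?_⟩
  · have hbq : Primrec fun x : List Bool × ℕ × ℕ => b x.2.2 :=
      hb.comp (Primrec.snd.comp Primrec.snd)
    have h1 : Primrec fun x : List Bool × ℕ × ℕ => f₁ x.1 := hf₁.comp Primrec.fst
    have h2 : Primrec fun x : List Bool × ℕ × ℕ => f₂ x.1 := hf₂.comp Primrec.fst
    refine Primrec.ite (Primrec.nat_le.comp hbq
      (Primrec.nat_min.comp (Primrec.list_length.comp h1) (Primrec.list_length.comp h2))) ?_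
      (Primrec.const _)
    exact Primrec.option_some.comp (hφ.comp
      (Primrec.pair (Primrec.list_take.comp hbq h1) (Primrec.list_take.comp hbq h2))
      (Primrec.snd.comp Primrec.snd))
  · intro k s n v hv
    simp only at hv
    split_ifs at hv with hle
    rw [(H₁ p hp).take (le_trans hle (min_le_left _ _)),
      (H₂ p hp).take (le_trans hle (min_le_right _ _))] at hv
    exact (Option.some.inj hv).symm
  · intro n
    obtain ⟨K₁, hK₁⟩ := (H₁ p hp).2 (b n)
    obtain ⟨K₂, hK₂⟩ := (H₂ p hp).2 (b n)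
    refine ⟨max K₁ K₂, 0, ?_⟩
    have e1 := hK₁ _ (le_max_left K₁ K₂)
    have e2 := hK₂ _ (le_max_right K₁ K₂)
    simp only
    rw [if_pos (le_min e1 e2), (H₁ p hp).take e1, (H₂ p hp).take e2]

/-- pointwise combination -/
theorem URed.map₂ (H₁ : URed D g h₁) (H₂ : URed D g h₂) {op : ℕ → Bool × Bool → Bool}
    (hop : Primrec₂ op) {i j : ℕ → ℕ} (hi : Primrec i) (hj : Primrec j) :
    URed D g (fun p n => op n (h₁ p (i n), h₂ p (j n))) := by
  have := URed.tt₂ H₁ H₂ (φ := fun q n => op n (q.1.getD (i n) false, q.2.getD (j n) false))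
    (b := fun n => max (i n) (j n) + 1) ?_ ?_
  · refine this.congr fun p _ => ?_
    funext n
    simp only
    rw [getD_res _ (by omega), getD_res _ (by omega)]
  · exact hop.comp Primrec.snd (Primrec.pair
      ((Primrec.list_getD false).comp (Primrec.fst.comp Primrec.fst) (hi.comp Primrec.snd))
      ((Primrec.list_getD false).comp (Primrec.snd.comp Primrec.fst) (hj.comp Primrec.snd)))
  · exact Primrec.succ.comp (Primrec.nat_max.comp hi hj)

/-- reindexing -/
theorem URed.idx (H : URed D g h) {i : ℕ → ℕ} (hi : Primrec i) :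
    URed D g (fun p n => h p (i n)) :=
  URed.map₂ H H (op := fun _ q => q.1) (Primrec.fst.comp Primrec.snd) hi hi

theorem URed.op (H₁ : URed D g h₁) (H₂ : URed D g h₂) (op : Bool → Bool → Bool) :
    URed D g (fun p n => op (h₁ p n) (h₂ p n)) :=
  URed.map₂ H₁ H₂ (op := fun _ q => op q.1 q.2)
    ((Primrec.dom_bool₂ op).comp (Primrec.fst.comp Primrec.snd) (Primrec.snd.comp Primrec.snd))
    Primrec.id Primrec.id

theorem URed.cond (H₁ : URed D g h₁) (H₂ : URed D g h₂) (H₃ : URed D g h₃) :
    URed D g (fun p n => cond (h₁ p n) (h₂ p n) (h₃ p n)) := by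
  have := (H₁.op H₂ fun a b => a && b).op (H₁.op H₃ fun a b => !a && b) fun a b => a || b
  refine this.congr fun p _ => ?_
  funext n
  cases h₁ p n <;> simp

theorem URed.const (c : Bool) : URed D g (fun _ _ => c) :=
  (URed.refl (g := g)).op URed.refl fun _ _ => c

/-- the join of two reals -/
def join (A B : X) : X := fun n => cond n.bodd (B n.div2) (A n.div2)

theorem URed.join (H₁ : URed D g h₁) (H₂ : URed D g h₂) :
    URed D g (fun p => join (h₁ p) (h₂ p)) :=
  URed.map₂ H₁ H₂ (op := fun n q => _root_.cond n.bodd q.2 q.1)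
    (Primrec.cond (Primrec.nat_bodd.comp Primrec.fst) (Primrec.snd.comp Primrec.snd)
      (Primrec.fst.comp Primrec.snd)) Primrec.nat_div2 Primrec.nat_div2

theorem URed.left : URed D (fun p => P327.join (h₁ p) (h₂ p)) h₁ := by
  refine ((URed.refl).idx (i := fun n => 2 * n)
    (Primrec.nat_mul.comp (Primrec.const 2) Primrec.id)).congr fun p _ => ?_
  funext n
  simp [P327.join, Nat.bodd_mul, Nat.div2_val]

theorem URed.right : URed D (fun p => P327.join (h₁ p) (h₂ p)) h₂ := by
  refine ((URed.refl).idx (i := fun n => 2 * n + 1)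
    (Primrec.succ.comp (Primrec.nat_mul.comp (Primrec.const 2) Primrec.id))).congr fun p _ => ?_
  funext n
  have : (2 * n + 1) / 2 = n := by omega
  simp [P327.join, Nat.bodd_mul, Nat.div2_val, this]

/-- iteration of a uniform reduction along a self-map of the parameter set -/
theorem URed.iter {T : α → α} (hT : ∀ p ∈ D, T p ∈ D) (H : URed D g (fun p => g (T p)))
    (H' : URed D g h) : URed D g (fun p n => h (T^[n] p) 0) := by
  obtain ⟨f, hf, H⟩ := H
  obtain ⟨f', hf', H'⟩ := H'
  have hit : ∀ n, ∀ p ∈ D, T^[n] p ∈ D ∧ Lim f^[n] (g p) (g (T^[n] p)) := by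
    intro n
    induction n with
    | zero => exact fun p hp => ⟨hp, Lim.id _⟩
    | succ n ih =>
      intro p hp
      obtain ⟨h1, h2⟩ := ih p hp
      rw [Function.iterate_succ', Function.iterate_succ']
      exact ⟨hT _ h1, h2.comp (H _ h1)⟩
  refine URed.of_sred (w := fun σ q => (f' (f^[q.2] σ))[0]?) ?_ fun p hp => ⟨?_, ?_⟩
  · refine Primrec.list_getElem?.comp (hf'.comp ?_) (Primrec.const 0)
    exact Primrec.nat_iterate (f := fun x : List Bool × ℕ × ℕ => x.2.2) (g := fun x => x.1)
      (h := fun _ σ => f σ) (Primrec.snd.comp Primrec.snd) Primrec.fst (hf.comp Primrec.snd)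
  · intro k s n v hv
    exact ((hit n p hp).2.comp (H' _ (hit n p hp).1)).sound hv
  · intro n
    obtain ⟨K, hK⟩ := ((hit n p hp).2.comp (H' _ (hit n p hp).1)).ev 0
    exact ⟨K, 0, hK K le_rfl⟩

theorem tl_iff {A B : X} : TL A B ↔ URed (Set.univ : Set Unit) (fun _ => B) (fun _ => A) :=
  ⟨TL.ured, fun H => H.tl (Set.mem_univ ())⟩

theorem TL.join {A B C : X} (H₁ : TL A C) (H₂ : TL B C) : TL (join A B) C :=
  tl_iff.2 ((tl_iff.1 H₁).join (tl_iff.1 H₂))

theorem TL.left (A B : X) : TL A (P327.join A B) := tl_iff.2 URed.left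

theorem TL.right (A B : X) : TL B (P327.join A B) := tl_iff.2 URed.right

theorem TL.op {A B C : X} (H₁ : TL A C) (H₂ : TL B C) (op : Bool → Bool → Bool) :
    TL (fun n => op (A n) (B n)) C :=
  tl_iff.2 ((tl_iff.1 H₁).op (tl_iff.1 H₂) op)

theorem TL.idx {A C : X} (H : TL A C) {i : ℕ → ℕ} (hi : Primrec i) : TL (fun n => A (i n)) C :=
  tl_iff.2 ((tl_iff.1 H).idx hi)

theorem TL.cond {A B E C : X} (H₁ : TL A C) (H₂ : TL B C) (H₃ : TL E C) :
    TL (fun n => cond (A n) (B n) (E n)) C :=
  tl_iff.2 ((tl_iff.1 H₁).cond (tl_iff.1 H₂) (tl_iff.1 H₃))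

theorem TL.map₂ {A B C : X} (H₁ : TL A C) (H₂ : TL B C) {op : ℕ → Bool × Bool → Bool}
    (hop : Primrec₂ op) {i j : ℕ → ℕ} (hi : Primrec i) (hj : Primrec j) :
    TL (fun n => op n (A (i n), B (j n))) C :=
  tl_iff.2 ((tl_iff.1 H₁).map₂ (tl_iff.1 H₂) hop hi hj)

theorem TL.tt₂ {A B C : X} (H₁ : TL A C) (H₂ : TL B C) {φ : List Bool × List Bool → ℕ → Bool}
    (hφ : Primrec₂ φ) {b : ℕ → ℕ} (hb : Primrec b) :
    TL (fun n => φ (res A (b n), res B (b n)) n) C :=
  tl_iff.2 ((tl_iff.1 H₁).tt₂ (tl_iff.1 H₂) hφ hb)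

/-- The primitive recursive string transformers. -/
abbrev Fn := {f : List Bool → List Bool // Primrec f}

instance countable_Fn : Countable Fn := by
  have h : ∀ f : Fn, ∃ c : Nat.Partrec.Code, c.eval = fun n =>
      Part.bind (Encodable.decode (α := List Bool) n) fun a =>
        ((f.1 : List Bool →. List Bool) a).map Encodable.encode :=
    fun f => Nat.Partrec.Code.exists_code.1 f.2.to_comp
  choose c hc using h
  refine Function.Injective.countable (f := c) fun f f' e => ?_
  apply Subtype.ext
  funext σ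
  have h1 := congrFun (hc f) (Encodable.encode σ)
  have h2 := congrFun (hc f') (Encodable.encode σ)
  rw [e, h2] at h1
  simpa using h1.symm

end Vale.Agent.P327
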