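import Vale.Agent.P327.Steps

/-!
# P327: every automorphism of the Turing degrees is the identity (real-level statement)
-/

namespace Vale.Agent.P327

open Set Filter Topology PiNat

/-- The local structure: three generic functional equations near a base point. -/
theorem local_structure {P : X → X → Prop} (h : Aut P) {F : Fn → X → X}
    (hFm : ∀ i, Measurable (F i)) (hF : ∀ x, ∃ i, P x (F i x)) {β : X} (hβ : β 0 = true) :
    ∃ (a e₄ e₅ e₆ ex f₂ f₃ f₄ : Fn) (u₀ k₀ : X) (L : ℕ) (M₁ M₂ M₃ : Set (X × X)),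
      k₀ 0 = u₀ 0 ∧ IsMeagre M₁ ∧ IsMeagre M₂ ∧ IsMeagre M₃ ∧
      cylinder u₀ L ⊆ fat {x | P x (F a x)} ∧
      cylinder (sh (add u₀ k₀)) L ⊆ fat {x | P x (F a x)} ∧
      cylinder (add u₀ (sh (add u₀ k₀))) L ⊆ fat {x | P x (F e₅ x)} ∧
      cylinder k₀ L ⊆ fat {y | P y (F e₄ y) ∧ P (conv β y) (F ex (conv β y))} ∧
      (∀ u ∈ cylinder u₀ L, ∀ k ∈ cylinder k₀ L, (u, k) ∉ M₁ →
        TL (F e₆ (add u (conv β k))) (join (F a u) (F ex (conv β k))) ∧
        TL (F a u) (join (F e₆ (add u (conv β k))) (F ex (conv β k)))) ∧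
      (∀ u ∈ cylinder u₀ L, ∀ v ∈ cylinder (sh (add u₀ k₀)) L, (u, v) ∉ M₂ →
        Lim f₂.1 (join (F a u) (F e₄ (add u (tm v)))) (F a v)) ∧
      (∀ u ∈ cylinder u₀ L, ∀ v ∈ cylinder (sh (add u₀ k₀)) L, (u, v) ∉ M₃ →
        Lim f₃.1 (join (F a v) (F e₅ (add u v))) (F a u) ∧
        Lim f₄.1 (join (F a u) (F e₅ (add u v))) (F a v)) := by
  set S : Fn → Set X := fun e => {x | P x (F e x)} with hSdef
  have hS : ∀ x, ∃ e, x ∈ S e := hF
  obtain ⟨a, u₀₀, hu₀₀⟩ : ∃ a u, u ∈ fat (S a) := by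
    by_contra hc
    push Not at hc
    refine not_isMeagre_of_isOpen isOpen_univ (univ_nonempty (α := X))
      ((isMeagre_iUnion fun e => meagre_diff_fat (S e)).mono fun x _ => ?_)
    obtain ⟨e, he⟩ := hS x
    exact mem_iUnion.2 ⟨e, he, hc e x⟩
  have m1 : ∀ e, Measurable fun p : X × X => F e p.1 := fun e => (hFm e).comp measurable_fst
  have m2 : ∀ e, Measurable fun p : X × X => F e p.2 := fun e => (hFm e).comp measurable_snd
  -- the shift relation
  have hg₂ : Continuous fun p : X × X => add p.1 (tm p.2) :=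
    cont_add continuous_fst (cont_tm.comp continuous_snd)
  obtain ⟨e₄, f₂, O₂, hO₂, hO₂n, hO₂s, hO₂f, hM₂⟩ := rel_fat hS hg₂
    (fun u => (open_addL u).comp open_tm) (ι := Fn)
    (R := fun e f => {p | Lim f.1 (join (F a p.1) (F e (add p.1 (tm p.2)))) (F a p.2)})
    (fun e f => Lim.meas _ (meas_join (m1 a) ((hFm e).comp hg₂.measurable)) (m2 a))
    (S₁ := S a) (S₂ := S a) ((isOpen_fat (S a)).prod (isOpen_fat (S a)))
    ⟨(u₀₀, u₀₀), hu₀₀, hu₀₀⟩ (fun p hp => hp) fun u hu v hv e he => by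
      have : TL v (join u (add u (tm v))) := by
        simpa using ((TL.left u (add u (tm v))).add (TL.right u (add u (tm v)))).sh
      obtain ⟨f, hf, hl⟩ := h.join hu he hv this
      exact ⟨⟨f, hf⟩, hl⟩
  -- the translation relation
  have hg₃ : Continuous fun p : X × X => add p.1 p.2 := cont_add continuous_fst continuous_snd
  obtain ⟨e₅, ⟨f₃, f₄⟩, O₃, hO₃, hO₃n, hO₃s, hO₃f, hM₃⟩ := rel_fat hS hg₃
    (fun u => open_addL u) (ι := Fn × Fn)
    (R := fun e f => {p | Lim f.1.1 (join (F a p.2) (F e (add p.1 p.2))) (F a p.1)} ∩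
      {p | Lim f.2.1 (join (F a p.1) (F e (add p.1 p.2))) (F a p.2)})
    (fun e f => (Lim.meas _ (meas_join (m2 a) ((hFm e).comp hg₃.measurable)) (m1 a)).inter
      (Lim.meas _ (meas_join (m1 a) ((hFm e).comp hg₃.measurable)) (m2 a)))
    (S₁ := S a) (S₂ := S a) hO₂ hO₂n (fun p hp => hO₂s hp) fun u hu v hv e he => by
      have h1 : TL v (join u (add u v)) := by
        simpa using (TL.left u (add u v)).add (TL.right u (add u v))
      have h2 : TL u (join v (add u v)) := by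
        simpa using (TL.right v (add u v)).add (TL.left v (add u v))
      obtain ⟨f, hf, hl⟩ := h.join hu he hv h1
      obtain ⟨f', hf', hl'⟩ := h.join hv he hu h2
      exact ⟨(⟨f', hf'⟩, ⟨f, hf⟩), hl', hl⟩
  -- tie the multiplier `β`
  set E : Fn → Set X := fun e => {y | P y (F e₄ y) ∧ P (conv β y) (F e (conv β y))} with hE
  obtain ⟨⟨u₁, v₁⟩, h₁⟩ := hO₃n
  have hK : IsOpen ((fun u => add u (tm v₁)) '' {u | (u, v₁) ∈ O₃}) :=
    open_addR _ _ (hO₃.preimage (Continuous.prodMk_left v₁))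
  have hKn : ¬ IsMeagre (S e₄ ∩ (fun u => add u (tm v₁)) '' {u | (u, v₁) ∈ O₃}) :=
    fat_spec hK ⟨_, u₁, h₁, rfl⟩ (by rintro _ ⟨u, hu, rfl⟩; exact hO₂f _ (hO₃s hu))
  obtain ⟨ex, hex⟩ : ∃ e, ¬ IsMeagre (E e ∩ (fun u => add u (tm v₁)) '' {u | (u, v₁) ∈ O₃}) := by
    by_contra hc
    push Not at hc
    refine hKn ((isMeagre_iUnion hc).mono fun y hy => ?_)
    obtain ⟨e, he⟩ := hS (conv β y)
    exact mem_iUnion.2 ⟨e, ⟨hy.1, he⟩, hy.2⟩
  obtain ⟨_, ⟨u₂, hu₂, rfl⟩, hk₁⟩ := exists_mem_fat hex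
  have hO' : IsOpen {p : X × X | p.2 0 = p.1 0 ∧ (p.1, sh (add p.1 p.2)) ∈ O₃ ∧
      p.2 ∈ fat (E ex)} := by
    have c0 : Continuous fun p : X × X => (p.2 0, p.1 0) :=
      ((continuous_apply 0).comp continuous_snd).prodMk ((continuous_apply 0).comp continuous_fst)
    have o1 : IsOpen {p : X × X | p.2 0 = p.1 0} :=
      (isOpen_discrete {q : Bool × Bool | q.1 = q.2}).preimage c0
    have o2 : IsOpen {p : X × X | (p.1, sh (add p.1 p.2)) ∈ O₃} := hO₃.preimage cont_shear'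
    have o3 : IsOpen {p : X × X | p.2 ∈ fat (E ex)} := (isOpen_fat _).preimage continuous_snd
    exact o1.inter (o2.inter o3)
  have hg₁ : Continuous fun p : X × X => add p.1 (conv β p.2) :=
    cont_add continuous_fst ((cont_conv β).comp continuous_snd)
  have m3 : Measurable fun p : X × X => F ex (conv β p.2) :=
    (hFm ex).comp ((cont_conv β).comp continuous_snd).measurable
  obtain ⟨e₆, -, O₁, hO₁, ⟨⟨u₀, k₀⟩, h₀⟩, hO₁s, -, hM₁⟩ := rel_fat hS hg₁
    (fun u => (open_addL u).comp (open_conv hβ)) (ι := Unit)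
    (R := fun e _ => {p | TL (F e (add p.1 (conv β p.2))) (join (F a p.1) (F ex (conv β p.2)))} ∩
      {p | TL (F a p.1) (join (F e (add p.1 (conv β p.2))) (F ex (conv β p.2)))})
    (fun e _ => (TL.meas (meas_join (m1 a) m3) ((hFm e).comp hg₁.measurable)).inter
      (TL.meas (meas_join ((hFm e).comp hg₁.measurable) m3) (m1 a)))
    (S₁ := S a) (S₂ := E ex) hO'
    ⟨(u₂, add u₂ (tm v₁)), by simp [add], by simpa using hu₂, hk₁⟩
    (fun p hp => ⟨(hO₂s (hO₃s hp.2.1)).1, hp.2.2⟩) fun u hu v hv e he =>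
      ⟨(), h.join hu hv.2 he ((TL.left _ _).add (TL.right _ _)), h.join he hv.2 hu (by
        simpa using (TL.left (add u (conv β v)) (conv β v)).add (TL.right _ _))⟩
  obtain ⟨L₁, hL₁⟩ := exists_cyl₂ hO₁ h₀
  obtain ⟨L₃, hL₃⟩ := exists_cyl₂ hO₃ (hO₁s h₀).2.1
  have c1 : ∀ u ∈ cylinder u₀ (max L₁ L₃), ∀ k ∈ cylinder k₀ (max L₁ L₃), (u, k) ∈ O₁ :=
    fun u hu k hk => hL₁ u (cylinder_anti _ (le_max_left _ _) hu) k
      (cylinder_anti _ (le_max_left _ _) hk)
  have c3 : ∀ u ∈ cylinder u₀ (max L₁ L₃), ∀ v ∈ cylinder (sh (add u₀ k₀)) (max L₁ L₃),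
      (u, v) ∈ O₃ :=
    fun u hu k hk => hL₃ u (cylinder_anti _ (le_max_right _ _) hu) k
      (cylinder_anti _ (le_max_right _ _) hk)
  refine ⟨a, e₄, e₅, e₆, ex, f₂, f₃, f₄, u₀, k₀, max L₁ L₃, _, _, _, (hO₁s h₀).1, hM₁, hM₂, hM₃,
    fun u hu => (hO₂s (hO₃s (c3 u hu _ (self_mem_cylinder _ _)))).1,
    fun v hv => (hO₂s (hO₃s (c3 _ (self_mem_cylinder _ _) v hv))).2,
    fun r hr => ?_, fun k hk => (hO₁s (c1 _ (self_mem_cylinder _ _) k hk)).2.2,
    fun u hu k hk hM => ?_, fun u hu v hv hM => ?_, fun u hu v hv hM => ?_⟩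
  · have := hO₃f _ (c3 _ (self_mem_cylinder _ _) (add u₀ r) fun i hi => by
      have := hr i hi
      simp only [add] at this ⊢
      rw [this]; simp [add])
    simpa using this
  · by_contra hc
    exact hM ⟨c1 u hu k hk, hc⟩
  · by_contra hc
    exact hM ⟨hO₃s (c3 u hu v hv), hc⟩
  · by_contra hc
    exact hM ⟨c3 u hu v hv, hc⟩

theorem Aut.le_of_unit {P : X → X → Prop} (h : Aut P) {β b : X} (hβ : β 0 = true) (hb : P b β) :
    TL b β := by
  classical
  by_contra hnb
  obtain ⟨F, hFm, hF⟩ := h.cover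
  obtain ⟨a, e₄, e₅, e₆, ex, f₂, f₃, f₄, u₀, k₀, L, M₁, M₂, M₃, hk₀, hM₁, hM₂, hM₃, fa, fa', f5,
    fE, R₁, R₂, R₃⟩ := local_structure h hFm hF hβ
  set v₀ := sh (add u₀ k₀) with hv₀
  have sub : ∀ {S : Set X} {c w : X} {n : ℕ}, cylinder c L ⊆ fat S → w ∈ cylinder c L → L ≤ n →
      ¬ IsMeagre (S ∩ cylinder w n) := fun hc hw hn =>
    fat_spec (isOpen_cyl _ _) ⟨_, self_mem_cylinder _ _⟩ fun x hx =>
      hc fun i hi => (hx i (by omega)).trans (hw i hi)
  -- reading a bit
  obtain ⟨j, l, m, y, hy, hLl, hlm, M, hM, rd₁, rd₂⟩ := read_bit (hFm a) (y₀ := v₀) (L := L + 1)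
    fun c hc => by
      obtain ⟨b₀, hb₀⟩ := h.sur c
      refine not_meagre_diff (sub fa' (self_mem_cylinder _ _) (Nat.le_succ L)) hc
        ((meagre_tl b₀).mono fun x hx => ?_)
      have e : F a x = c := by
        by_contra hne
        exact hx.2 ⟨hx.1.2, hne⟩
      have hx1 : P x (F a x) := hx.1.1
      rw [e] at hx1
      exact (h.ord hx1 hb₀).2 (TL.refl c)
  have N₁ := ku' hM₁
  have N₂ := ku' (hM₂.preimage_of_isOpenMap cont_shear' open_shear')
  have N₃ := ku' (hM₃.preimage_of_isOpenMap cont_shear open_shear)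
  -- choose the auxiliary reals
  obtain ⟨k, hk, C₁, hC₁, hβC₁, hkC₁⟩ := exists_ext_fin hnb fun c : Bool =>
    not_meagre_diff (sub (w := Function.update k₀ l c) (n := l + 1) fE
      (fun i hi => Function.update_of_ne (by omega) _ _) (by omega)) (N₁.union N₂)
  set w := Function.update v₀ (l - 1) false with hw
  obtain ⟨k', hk', C₂, hC₂, hC₁₂, hk'C₂⟩ := exists_ext hC₁
    (not_meagre_diff (sub (w := add u₀ w) (n := l) f5
      (fun i hi => by simp only [add, hw]; rw [Function.update_of_ne (by omega)]) (by omega)) N₃)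
  let cs : (Fin m → Bool) → X := fun s i =>
    if i < l then add u₀ y i else if i = l then false else if h : i < m then s ⟨i, h⟩ else false
  obtain ⟨r, hr, C₃, hC₃, hC₂₃, hrC₃⟩ := exists_ext_fin hC₂ fun s : Fin m → Bool =>
    not_meagre_diff (sub (w := cs s) (n := m) f5
      (fun i hi => by
        simp only [cs, add]
        rw [if_pos (by omega), hy i (by omega)]) (by omega)) N₃
  have hkl : ∀ c, k c l = c := fun c => by
    rw [(hk c).1.2 l (Nat.lt_succ_self l), Function.update_self]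
  have hklt : ∀ c, ∀ i < l, k c i = k₀ i := fun c i hi => by
    rw [(hk c).1.2 i (by omega), Function.update_of_ne hi.ne]
  have g₁ : ∀ c, IsMeagre {u | (u, k c) ∈ M₁} := fun c => by
    by_contra hc
    exact (hk c).2 (Or.inl hc)
  have g₂ : ∀ c, IsMeagre {u | (u, sh (add u (k c))) ∈ M₂} := fun c => by
    by_contra hc
    exact (hk c).2 (Or.inr hc)
  have g₃ : IsMeagre {u | (u, add u k') ∈ M₃} := by
    by_contra hc
    exact hk'.2 hc
  have g₄ : ∀ s, IsMeagre {u | (u, add u (r s)) ∈ M₃} := fun s => by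
    by_contra hc
    exact (hr s).2 hc
  have g₅ : ∀ s, IsMeagre ((fun u => add u (r s)) ⁻¹' M) := fun s =>
    hM.preimage_of_isOpenMap (cont_add continuous_id continuous_const) (open_addR _)
  have hBad := ((isMeagre_iUnion g₂).union g₃).union
    ((isMeagre_iUnion g₄).union (isMeagre_iUnion g₅))
  set Bad := ((⋃ c, {u | (u, sh (add u (k c))) ∈ M₂}) ∪ {u | (u, add u k') ∈ M₃}) ∪
    ((⋃ s, {u | (u, add u (r s)) ∈ M₃}) ∪ ⋃ s, (fun u => add u (r s)) ⁻¹' M) with hBadDef
  have hOrb := meagre_orbit l k k' hBad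
  set γ := conv β (add (k false) (k true)) with hγ
  have pre : ∀ {N : Set X}, IsMeagre N → IsMeagre ((fun u => add u γ) ⁻¹' N) := fun hN =>
    hN.preimage_of_isOpenMap (cont_add continuous_id continuous_const) (open_addR _)
  obtain ⟨z, hz, C, hC, hC₃', hzC⟩ := exists_ext hC₃
    (not_meagre_diff (sub (w := u₀) (n := l) fa (self_mem_cylinder _ _) (by omega))
      ((hOrb.union (pre hOrb)).union ((g₁ false).union (pre (g₁ true)))))
  obtain ⟨Y, hY⟩ := h.tot C
  have val : ∀ {x v : X}, P x v → TL x C → TL v Y := fun hx hxC => (h.ord hx hY).1 hxC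
  have hC₂C : TL C₂ C := hC₂₃.trans hC₃'
  have hC₁C : TL C₁ C := hC₁₂.trans hC₂C
  have hβC : TL β C := hβC₁.trans hC₁C
  have hkC : ∀ c, TL (k c) C := fun c => (hkC₁ c).trans hC₁C
  -- geometry of the step
  have geo₁ : ∀ u ∈ cylinder u₀ l, sh (add u (k (u l))) ∈ cylinder w l := by
    intro u hu i hi
    simp only [hw, sh, add]
    by_cases e : i = l - 1
    · have e' : i + 1 = l := by omega
      rw [e, Function.update_self, ← e, e', hkl]; simp
    · rw [Function.update_of_ne e, hu (i + 1) (by omega), hklt _ (i + 1) (by omega)]; rfl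
  have geo₁' : ∀ u ∈ cylinder u₀ l, sh (add u (k (u l))) ∈ cylinder v₀ L := fun u hu i hi => by
    rw [geo₁ u hu i (by omega), hw, Function.update_of_ne (by omega)]
  have geo₂ : ∀ u ∈ cylinder u₀ l, step l k k' u ∈ cylinder u₀ l := by
    intro u hu i hi
    have h1 := geo₁ u hu i hi
    have h2 := hk'.1.2 i hi
    simp only [step, add] at h1 h2 ⊢
    rw [h1, h2]
    cases w i <;> cases u₀ i <;> rfl
  have geo₃ : ∀ u ∈ cylinder u₀ l, ∀ s, add u (r s) ∈ cylinder y l ∧ add u (r s) l = u l := by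
    intro u hu s
    refine ⟨fun i hi => ?_, ?_⟩
    · have h2 := (hr s).1.2 i (by omega)
      simp only [cs, if_pos hi, add] at h2 ⊢
      rw [h2, hu i hi]; simp
    · have h2 := (hr s).1.2 l hlm
      simp only [cs, lt_irrefl, if_false, if_true] at h2
      simp [add, h2]
  have cL : ∀ {u}, u ∈ cylinder u₀ l → u ∈ cylinder u₀ L := fun hu =>
    cylinder_anti _ (by omega) hu
  have dec : ∀ u ∈ cylinder u₀ l, (∀ n, (step l k k')^[n] u ∉ Bad) → TL (F a u) Y →
      TL (fun n => (step l k k')^[n] u l) Y := by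
    intro u hu hu' hG
    refine decode (G := F a) (j := j) (Q := cylinder u₀ l) (A := fun c => F e₄ (k c))
      (A' := F e₅ k') (r := r) (B := fun s => F e₅ (r s)) (c := y l) f₂.2 f₃.2 f₄.2
      (fun c => val (hk c).1.1.1 (hkC c)) (val hk'.1.1 (hk'C₂.trans hC₂C))
      (fun s => val (hr s).1.1 ((hrC₃ s).trans hC₃')) geo₂ ?_ ?_ ?_ ?_ hu hu' hG
    · intro u hu hB
      have := R₂ u (cL hu) _ (geo₁' u hu) fun hm => hB (Or.inl (Or.inl (mem_iUnion.2 ⟨_, hm⟩)))
      rwa [tm_sh (by simp only [add]; rw [hu 0 (by omega), hklt _ 0 (by omega), hk₀]; simp),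
        add_add_left] at this
    · intro u hu hB
      have e : add (step l k k' u) k' = sh (add u (k (u l))) := by simp [step]
      have := (R₃ _ (cL (geo₂ u hu)) _ (geo₁' u hu) fun hm => hB (Or.inl (Or.inr (by
        rw [← e] at hm; exact hm)))).1
      have e' : add (step l k k' u) (sh (add u (k (u l)))) = k' := by
        rw [← e, add_add_left]
      rwa [e'] at this
    · intro u hu hB s
      have := (R₃ u (cL hu) _ (fun i hi => ((geo₃ u hu s).1 i (by omega)).trans (hy i (by omega)))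
        fun hm => hB (Or.inr (Or.inl (mem_iUnion.2 ⟨s, hm⟩)))).2
      rwa [add_add_left] at this
    · intro u hu hB
      have hM' : ∀ s, add u (r s) ∉ M := fun s hm => hB (Or.inr (Or.inr (mem_iUnion.2 ⟨s, hm⟩)))
      refine ⟨fun e => ⟨fun i => add u y i, rd₂ _ (fun i hi => ?_) (hM' _)⟩, fun ⟨s, hs⟩ => ?_⟩
      · rcases lt_trichotomy i l with hi' | rfl | hi'
        · exact (geo₃ u hu _).1 i hi'
        · rw [(geo₃ u hu _).2, e]
        · have h2 := (hr fun i => add u y i).1.2 i hi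
          simp only [cs, if_neg (show ¬ i < l by omega), if_neg (show ¬ i = l by omega),
            dif_pos hi] at h2
          simp only [add] at h2 ⊢
          rw [h2]; simp
      · by_contra hne
        rw [rd₁ _ (geo₃ u hu s).1 (by rw [(geo₃ u hu s).2]; exact hne) (hM' s)] at hs
        simp at hs
  have hγ0 : ∀ i < l, γ i = false := fun i hi => by
    have h0 : ∀ i < l, add (k false) (k true) i = false := fun i hi => by
      simp [add, hklt _ i hi]
    rw [hγ, conv_lead _ _ fun i' hi' => h0 i' (by omega), h0 i hi]; simp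
  have hx : add z γ ∈ cylinder u₀ l := fun i hi => by
    simp only [add]; rw [hγ0 i hi, hz.1.2 i hi]; simp
  have hkL : ∀ c, k c ∈ cylinder k₀ L := fun c i hi => hklt c i (by omega)
  have vz : TL (F a z) Y := val hz.1.1 hzC
  have vk : ∀ c, TL (F ex (conv β (k c))) Y := fun c => val (hk c).1.1.2 (hβC.conv (hkC c))
  have vx : TL (F a (add z γ)) Y := by
    have h1 := (R₁ z (cL hz.1.2) _ (hkL false) fun hm => hz.2 (Or.inr (Or.inl hm))).1
    have h2 := (R₁ _ (cL hx) _ (hkL true) fun hm => hz.2 (Or.inr (Or.inr hm))).2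
    have e : add (add z γ) (conv β (k true)) = add z (conv β (k false)) := by
      rw [hγ, conv_add]
      funext i
      simp [add]
    rw [e] at h2
    exact h2.trans ((h1.trans (vz.join (vk false))).join (vk true))
  have i1 := dec z hz.1.2 (fun n hn => hz.2 (Or.inl (Or.inl ⟨n, hn⟩))) vz
  have i2 := dec _ hx (fun n hn => hz.2 (Or.inl (Or.inr ⟨n, hn⟩))) vx
  have hβY : TL β Y := by
    have := i2.op i1 xor
    convert this using 1
    funext n
    exact (itinerary (fun i hi => (hklt false i hi).trans (hklt true i hi).symm) hkl n β z).symm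
  exact hC ((h.ord hb hY).2 hβY)

theorem Aut.le {P : X → X → Prop} (h : Aut P) {β b : X} (hb : P b β) : TL b β := by
  let β' : X := fun n => Nat.casesOn n true β
  obtain ⟨b', hb'⟩ := h.sur β'
  have h1 := h.le_of_unit (β := β') rfl hb'
  have h2 : TL β β' := (TL.refl β').sh
  exact ((h.ord hb hb').2 h2).trans (h1.trans ((TL.refl β).cons true))

theorem Aut.equiv {P : X → X → Prop} (h : Aut P) {u v : X} (huv : P u v) : TL u v ∧ TL v u :=
  ⟨h.le huv, h.flip.le huv⟩

end Vale.Agent.P327
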