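import Vale.Agent.P327.Alg

/-!
# P327: uniformization, reading a bit, decoding
-/

namespace Vale.Agent.P327

open Set Filter Topology PiNat

theorem rel_fat {S : Fn → Set X} (hS : ∀ x, ∃ e, x ∈ S e) {g : X × X → X} (hg : Continuous g)
    (hgo : ∀ u, IsOpenMap fun v => g (u, v)) {ι : Type} [Countable ι] {R : Fn → ι → Set (X × X)}
    (hR : ∀ e i, MeasurableSet (R e i)) {S₁ S₂ : Set X} {O : Set (X × X)}
    (hO : IsOpen O) (hne : O.Nonempty) (hfat : ∀ p ∈ O, p.1 ∈ fat S₁ ∧ p.2 ∈ fat S₂)
    (hcol : ∀ u ∈ S₁, ∀ v ∈ S₂, ∀ e, g (u, v) ∈ S e → ∃ i, (u, v) ∈ R e i) :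
    ∃ e i O', IsOpen O' ∧ O'.Nonempty ∧ O' ⊆ O ∧ (∀ p ∈ O', g p ∈ fat (S e)) ∧
      IsMeagre (O' \ R e i) := by
  have hN : IsMeagre (⋃ e, S e \ fat (S e)) := isMeagre_iUnion fun e => meagre_diff_fat _
  obtain ⟨⟨e, i⟩, O', h1, h2, h3, h4⟩ := rel_lemma (ι := Fn × ι)
    (R := fun q => R q.1 q.2 ∩ g ⁻¹' fat (S q.1))
    (fun q => (hR q.1 q.2).baireMeasurableSet.inter
      ((isOpen_fat _).preimage hg).baireMeasurableSet) hO hne hfat fun u hu =>
      ⟨_, hN.preimage_of_isOpenMap (hg.comp (Continuous.prodMk_right u)) (hgo u),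
        fun v hv hvN => by
          obtain ⟨e, he⟩ := hS (g (u, v))
          obtain ⟨i, hi⟩ := hcol u hu v hv e he
          refine ⟨(e, i), hi, ?_⟩
          by_contra hf
          exact hvN (mem_iUnion.2 ⟨e, he, hf⟩)⟩
  refine ⟨e, i, O' ∩ g ⁻¹' fat (S e), h1.inter ((isOpen_fat _).preimage hg), ?_,
    inter_subset_left.trans h3, fun p hp => hp.2,
    IsMeagre.mono (fun p hp => And.intro hp.1.1 fun h => hp.2 h.1) h4⟩
  obtain ⟨p, hp, hp'⟩ := exists_of_not_meagre (not_isMeagre_of_isOpen h1 h2) h4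
  refine ⟨p, hp, ?_⟩
  by_contra hf
  exact hp' ⟨hp, fun h => hf h.2⟩

/-- Reading one bit of the argument from values of a generically non-constant Borel map. -/
theorem read_bit {G : X → X} (hG : Measurable G) {y₀ : X} {L : ℕ}
    (hnc : ∀ c, ¬ IsMeagre (cylinder y₀ L \ {x | G x = c})) :
    ∃ j l m : ℕ, ∃ y ∈ cylinder y₀ L, L ≤ l ∧ l < m ∧ ∃ M, IsMeagre M ∧
      (∀ x ∈ cylinder y l, x l ≠ y l → x ∉ M → G x j = true) ∧
      ∀ x ∈ cylinder y m, x ∉ M → G x j = false := by
  have h1 : ∃ j, ∀ c, ¬ IsMeagre ({x | G x j = c} ∩ cylinder y₀ L) := by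
    by_contra h
    push Not at h
    choose c hc using h
    refine hnc (fun j => !c j) ((isMeagre_iUnion hc).mono fun x hx => ?_)
    by_contra hx'
    refine hx.2 (funext fun j => ?_)
    have : ¬ G x j = c j := fun e => hx' (mem_iUnion.2 ⟨j, e, hx.1⟩)
    revert this
    cases G x j <;> cases c j <;> simp
  obtain ⟨j, hj⟩ := h1
  have hE : ∀ c, BaireMeasurableSet {x | G x j = c} := fun c =>
    (((measurable_pi_apply j).comp hG) (measurableSet_singleton c)).baireMeasurableSet
  obtain ⟨V, hV, ⟨x₁, hx₁⟩, hVs, hVm⟩ := exists_open_comeagre (hE true) (isOpen_cyl y₀ L) (hj true)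
  obtain ⟨n, hn⟩ := exists_cyl hV hx₁
  have hx₁L : cylinder x₁ L = cylinder y₀ L := mem_cylinder_iff_eq.1 (hVs hx₁)
  have hex : ∃ t, IsMeagre ({x | G x j = false} ∩ cylinder x₁ (L + t)) :=
    ⟨n, IsMeagre.mono (fun x hx => And.intro (hn (cylinder_anti _ (by omega) hx.2)) fun h => by
      have h1 : G x j = false := hx.1
      have h2 : G x j = true := h
      rw [h1] at h2; simp at h2) hVm⟩
  classical
  have ht0 : Nat.find hex ≠ 0 := by
    intro h
    have := Nat.find_spec hex
    rw [h, Nat.add_zero, hx₁L] at this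
    exact hj false this
  obtain ⟨t, ht⟩ := Nat.exists_eq_succ_of_ne_zero ht0
  have hyes : IsMeagre ({x | G x j = false} ∩ cylinder x₁ (L + t + 1)) := by
    have := Nat.find_spec hex
    rwa [ht] at this
  have hno : ¬ IsMeagre ({x | G x j = false} ∩ cylinder x₁ (L + t)) :=
    Nat.find_min hex (by omega)
  set l := L + t with hl
  have hno' : ¬ IsMeagre ({x | G x j = false} ∩
      cylinder (Function.update x₁ l (!x₁ l)) (l + 1)) := by
    refine fun h => hno ((hyes.union h).mono fun x hx => ?_)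
    by_cases e : x l = x₁ l
    · refine Or.inl ⟨hx.1, fun i hi => ?_⟩
      rcases Nat.lt_succ_iff_lt_or_eq.1 hi with hi | rfl
      · exact hx.2 i hi
      · exact e
    · refine Or.inr ⟨hx.1, fun i hi => ?_⟩
      rcases Nat.lt_succ_iff_lt_or_eq.1 hi with hi | rfl
      · rw [Function.update_of_ne hi.ne]; exact hx.2 i hi
      · rw [Function.update_self]
        revert e
        cases x l <;> cases x₁ l <;> simp
  obtain ⟨W, hW, ⟨y, hy⟩, hWs, hWm⟩ := exists_open_comeagre (hE false) (isOpen_cyl _ _) hno'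
  obtain ⟨m, hm⟩ := exists_cyl hW hy
  have hy1 : ∀ i < l, y i = x₁ i := fun i hi => by
    rw [hWs hy i (by omega), Function.update_of_ne hi.ne]
  have hy2 : y l = !x₁ l := by rw [hWs hy l (by omega), Function.update_self]
  refine ⟨j, l, max m (l + 1), y, fun i hi => (hy1 i (by omega)).trans (hVs hx₁ i hi), by omega,
    by omega, _, hyes.union hWm, fun x hx hxl hxM => ?_, fun x hx hxM => ?_⟩
  · by_contra hc
    refine hxM (Or.inl ⟨by simpa using hc, fun i hi => ?_⟩)
    rcases Nat.lt_succ_iff_lt_or_eq.1 hi with hi | rfl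
    · exact (hx i hi).trans (hy1 i hi)
    · rw [hy2] at hxl
      revert hxl
      cases x l <;> cases x₁ l <;> simp
  · by_contra hc
    exact hxM (Or.inr ⟨hm (cylinder_anti _ (le_max_left _ _) hx), hc⟩)

/-- the expanding map -/
def step (l : ℕ) (k : Bool → X) (k' : X) (u : X) : X := add (sh (add u (k (u l)))) k'

theorem meagre_step (l : ℕ) (k : Bool → X) (k' : X) {M : Set X} (hM : IsMeagre M) :
    IsMeagre (step l k k' ⁻¹' M) := by
  have h : ∀ b, IsMeagre ((fun u => add (sh (add u (k b))) k') ⁻¹' M) := fun b =>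
    hM.preimage_of_isOpenMap
      (cont_add (cont_sh.comp (cont_add continuous_id continuous_const)) continuous_const)
      ((open_addR k').comp (open_sh.comp (open_addR (k b))))
  exact (isMeagre_iUnion h).mono fun u hu => mem_iUnion.2 ⟨u l, hu⟩

theorem meagre_orbit (l : ℕ) (k : Bool → X) (k' : X) {M : Set X} (hM : IsMeagre M) :
    IsMeagre {u | ∃ n, (step l k k')^[n] u ∈ M} := by
  have h : ∀ n, IsMeagre ((step l k k')^[n] ⁻¹' M) := by
    intro n
    induction n with
    | zero => exact hM
    | succ n ih => rw [Function.iterate_succ, preimage_comp]; exact meagre_step l k k' ih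
  exact (isMeagre_iUnion h).mono fun u ⟨n, hn⟩ => mem_iUnion.2 ⟨n, hn⟩

theorem decode {G : X → X} {Y : X} {l j : ℕ} {Q Bad : Set X} {k A : Bool → X} {k' A' : X}
    {ι : Type} [Finite ι] {r B : ι → X} {c : Bool} {f₂ f₃ f₄ : List Bool → List Bool}
    (hf₂ : Primrec f₂) (hf₃ : Primrec f₃) (hf₄ : Primrec f₄)
    (hA : ∀ b, TL (A b) Y) (hA' : TL A' Y) (hB : ∀ s, TL (B s) Y)
    (hT : ∀ u ∈ Q, step l k k' u ∈ Q)
    (h₂ : ∀ u ∈ Q, u ∉ Bad → Lim f₂ (join (G u) (A (u l))) (G (sh (add u (k (u l))))))
    (h₃ : ∀ u ∈ Q, step l k k' u ∉ Bad →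
      Lim f₃ (join (G (sh (add u (k (u l))))) A') (G (step l k k' u)))
    (h₄ : ∀ u ∈ Q, u ∉ Bad → ∀ s, Lim f₄ (join (G u) (B s)) (G (add u (r s))))
    (h₅ : ∀ u ∈ Q, u ∉ Bad → (u l = c ↔ ∃ s, G (add u (r s)) j = false))
    {u : X} (hu : u ∈ Q) (hu' : ∀ n, (step l k k')^[n] u ∉ Bad) (hG : TL (G u) Y) :
    TL (fun n => (step l k k')^[n] u l) Y := by
  classical
  have := Fintype.ofFinite ι
  set D : Set X := {u | u ∈ Q ∧ ∀ n, (step l k k')^[n] u ∉ Bad} with hD
  set g : X → X := fun u => join (G u) Y with hg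
  have gG : URed D g G := URed.left
  have gY : URed D g fun _ => Y := URed.right
  have gr : ∀ s, URed D g fun u => G (add u (r s)) := fun s =>
    (gG.join (gY.trans (hB s).ured)).trans
      (URed.of_lim hf₄ fun u hu => h₄ u hu.1 (hu.2 0) s)
  have gor : ∀ T : Finset ι,
      URed D g fun u _ => decide (∃ s ∈ T, G (add u (r s)) j = false) := by
    intro T
    induction T using Finset.induction_on with
    | empty => exact (URed.const false).congr fun u _ => by simp
    | insert s T _ ih =>
      refine ((((gr s).idx (Primrec.const j))).op ih fun a b => !a || b).congr fun u _ => ?_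
      funext n
      simp
  have gbit : URed D g fun u _ => u l := by
    refine ((gor Finset.univ).op (URed.const c) fun a c => cond a c (!c)).congr fun u hu => ?_
    funext n
    have := h₅ u hu.1 (hu.2 0)
    by_cases e : u l = c
    · have h := this.1 e
      simp [h, e]
    · have h : ¬ ∃ s, G (add u (r s)) j = false := fun h => e (this.2 h)
      simp only [Finset.mem_univ, true_and, h, decide_false, cond_false]
      revert e
      cases u l <;> cases c <;> simp
  have gA : URed D g fun u => A (u l) := by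
    refine (gbit.cond (gY.trans (hA true).ured) (gY.trans (hA false).ured)).congr fun u _ => ?_
    funext n
    cases u l <;> rfl
  have g2 : URed D g fun u => G (sh (add u (k (u l)))) :=
    (gG.join gA).trans (URed.of_lim hf₂ fun u hu => h₂ u hu.1 (hu.2 0))
  have g3 : URed D g fun u => G (step l k k' u) :=
    (g2.join (gY.trans hA'.ured)).trans (URed.of_lim hf₃ fun u hu => h₃ u hu.1 (hu.2 1))
  have hTD : ∀ u ∈ D, step l k k' u ∈ D := fun u hu => ⟨hT u hu.1, fun n => hu.2 (n + 1)⟩
  have := URed.iter hTD (g3.join gY) gbit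
  exact (this.tl (p := u) ⟨hu, hu'⟩).trans (hG.join (TL.refl Y))

/-- the itineraries of two points differ by the quotient of power series -/
theorem itinerary {l : ℕ} {k : Bool → X} {k' : X} (hk : ∀ i < l, k false i = k true i)
    (hkl : ∀ b, k b l = b) (n : ℕ) (β z : X) :
    xor ((step l k k')^[n] (add z (conv β (add (k false) (k true)))) l)
      ((step l k k')^[n] z l) = β n := by
  set q := add (k false) (k true) with hq
  have hq0 : ∀ i < l, q i = false := fun i hi => by simp [hq, add, hk i hi]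
  have hql : q l = true := by simp [hq, add, hkl]
  have hlead : ∀ γ : X, conv γ q l = γ 0 := fun γ => by rw [conv_lead γ q hq0, hql]; simp
  induction n generalizing β z with
  | zero =>
    simp only [Function.iterate_zero, id, add, hlead]
    cases z l <;> simp
  | succ n ih =>
    have e : step l k k' (add z (conv β q)) = add (step l k k' z) (conv (sh β) q) := by
      rw [← conv_shift]
      funext i
      have hqi : q (i + 1) = xor (k false (i + 1)) (k true (i + 1)) := rfl
      simp only [step, add, sh, hlead, hqi]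
      generalize conv β q (i + 1) = w
      cases z l <;> cases β 0 <;> cases z (i + 1) <;> cases k' i <;> cases w <;>
        simp only [Bool.xor_false, Bool.xor_true, Bool.not_false, Bool.not_true] <;>
        cases k false (i + 1) <;> cases k true (i + 1) <;> simp
    rw [Function.iterate_succ_apply, Function.iterate_succ_apply, e]
    exact ih (sh β) _

end Vale.Agent.P327
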