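import Vale.Agent.P327.Comp

/-!
# P327: Baire category tools
-/

namespace Vale.Agent.P327

open Set Filter Topology PiNat

section General

variable {Y Z : Type*} [TopologicalSpace Y] [TopologicalSpace Z]

/-- Kuratowski–Ulam, the direction used here. -/
theorem ku [SecondCountableTopology Z] {M : Set (Y × Z)} (hM : IsMeagre M) :
    IsMeagre {y | ¬ IsMeagre {z | (y, z) ∈ M}} := by
  obtain ⟨S, hSo, hSd, hSc, hS⟩ := mem_residual_iff.1 hM
  have key : ∀ O ∈ S, {y | {z | (y, z) ∈ O} ∈ residual Z} ∈ residual Y := by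
    intro O hO
    have h1 : ∀ V ∈ TopologicalSpace.countableBasis Z,
        {y | ∃ z ∈ V, (y, z) ∈ O} ∈ residual Y := by
      intro V hV
      have hVo := TopologicalSpace.isOpen_of_mem_countableBasis hV
      have hVn := TopologicalSpace.nonempty_of_mem_countableBasis hV
      have : {y | ∃ z ∈ V, (y, z) ∈ O} = Prod.fst '' (O ∩ univ ×ˢ V) := by
        ext y; simp; tauto
      refine residual_of_dense_open ?_ ?_
      · rw [this]
        exact isOpenMap_fst _ ((hSo O hO).inter (isOpen_univ.prod hVo))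
      · rw [dense_iff_inter_open]
        intro U hU hUn
        obtain ⟨⟨y, z⟩, ⟨hy, hz⟩, hO'⟩ :=
          (hSd O hO).inter_open_nonempty (U ×ˢ V) (hU.prod hVo) (hUn.prod hVn)
        exact ⟨y, hy, z, hz, hO'⟩
    have h2 := (countable_bInter_mem (TopologicalSpace.countable_countableBasis Z)).2 h1
    refine mem_of_superset h2 fun y hy => ?_
    refine residual_of_dense_open ((hSo O hO).preimage (Continuous.prodMk_right y)) ?_
    rw [(TopologicalSpace.isBasis_countableBasis Z).dense_iff]
    intro V hV _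
    obtain ⟨z, hz, hO'⟩ := mem_iInter₂.1 hy V hV
    exact ⟨z, hz, hO'⟩
  have h3 := (countable_bInter_mem hSc).2 key
  refine mem_of_superset h3 fun y hy => ?_
  simp only [mem_compl_iff, mem_ofPred_eq, not_not]
  have h4 : (⋂ O ∈ S, {z | (y, z) ∈ O}) ∈ residual Z :=
    (countable_bInter_mem hSc).2 fun O hO => mem_iInter₂.1 hy O hO
  refine mem_of_superset h4 fun z hz => ?_
  exact hS (mem_sInter.2 fun O hO => mem_iInter₂.1 hz O hO)

theorem ku' [SecondCountableTopology Y] {M : Set (Y × Z)} (hM : IsMeagre M) :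
    IsMeagre {z | ¬ IsMeagre {y | (y, z) ∈ M}} := by
  have : IsMeagre (Prod.swap ⁻¹' M : Set (Z × Y)) :=
    hM.preimage_of_isOpenMap continuous_swap (Homeomorph.prodComm Z Y).isOpenMap
  exact ku this

theorem exists_of_not_meagre {S M : Set Y} (hS : ¬ IsMeagre S) (hM : IsMeagre M) :
    ∃ y ∈ S, y ∉ M := by
  by_contra h
  push Not at h
  exact hS (hM.mono h)

theorem not_meagre_diff {S M : Set Y} (hS : ¬ IsMeagre S) (hM : IsMeagre M) :
    ¬ IsMeagre (S \ M) := fun h => hS ((h.union hM).mono fun y hy => by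
  by_cases h : y ∈ M
  · exact Or.inr h
  · exact Or.inl ⟨hy, h⟩)

/-- The open set on which `S` is everywhere non-meagre. -/
def fat (S : Set Y) : Set Y :=
  {y | ∃ U, IsOpen U ∧ y ∈ U ∧ ∀ V, IsOpen V → V.Nonempty → V ⊆ U → ¬ IsMeagre (S ∩ V)}

theorem isOpen_fat (S : Set Y) : IsOpen (fat S) := by
  rw [isOpen_iff_forall_mem_open]
  rintro y ⟨U, hU, hy, h⟩
  exact ⟨U, fun z hz => ⟨U, hU, hz, h⟩, hU, hy⟩

theorem fat_spec {S V : Set Y} (hV : IsOpen V) (hne : V.Nonempty) (h : V ⊆ fat S) :
    ¬ IsMeagre (S ∩ V) := by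
  obtain ⟨y, hy⟩ := hne
  obtain ⟨U, hU, hyU, hh⟩ := h hy
  exact fun hm => hh (V ∩ U) (hV.inter hU) ⟨y, hy, hyU⟩ inter_subset_right
    (hm.mono (inter_subset_inter_right _ inter_subset_left))

theorem meagre_diff_fat [SecondCountableTopology Y] (S : Set Y) : IsMeagre (S \ fat S) := by
  set B := {V ∈ TopologicalSpace.countableBasis Y | IsMeagre (S ∩ V)} with hB
  have hBc : B.Countable := (TopologicalSpace.countable_countableBasis Y).mono (sep_subset _ _)
  have hNo : IsOpen (⋃ V ∈ B, V) :=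
    isOpen_biUnion fun V hV => TopologicalSpace.isOpen_of_mem_countableBasis hV.1
  have h1 : IsMeagre (⋃ V ∈ B, S ∩ V) := isMeagre_biUnion hBc fun V hV => hV.2
  have h2 : IsMeagre (frontier (⋃ V ∈ B, V)ᶜ) := by
    refine IsNowhereDense.isMeagre ?_
    rw [isClosed_frontier.isNowhereDense_iff]
    exact interior_frontier hNo.isClosed_compl
  refine (h1.union h2).mono fun y hy => ?_
  by_cases hN : y ∈ ⋃ V ∈ B, V
  · left
    obtain ⟨V, hV, hyV⟩ := mem_iUnion₂.1 hN
    exact mem_iUnion₂.2 ⟨V, hV, hy.1, hyV⟩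
  · right
    rw [hNo.isClosed_compl.frontier_eq]
    refine ⟨hN, fun hint => hy.2 ⟨_, isOpen_interior, hint, fun V hV hVn hVs hm => ?_⟩⟩
    obtain ⟨z, hz⟩ := hVn
    obtain ⟨W, hW, hzW, hWV⟩ :=
      (TopologicalSpace.isBasis_countableBasis Y).exists_subset_of_mem_open hz hV
    exact interior_subset (hVs hz)
      (mem_iUnion₂.2 ⟨W, ⟨hW, hm.mono (inter_subset_inter_right _ hWV)⟩, hzW⟩)

theorem exists_mem_fat [SecondCountableTopology Y] {S O : Set Y} (h : ¬ IsMeagre (S ∩ O)) :
    ∃ y ∈ O, y ∈ fat S := by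
  obtain ⟨y, hy, hy'⟩ := exists_of_not_meagre h (meagre_diff_fat S)
  refine ⟨y, hy.2, ?_⟩
  by_contra hh
  exact hy' ⟨hy.1, hh⟩

/-- a non-meagre Baire measurable set is comeagre in a nonempty open set -/
theorem exists_open_comeagre {R O : Set Y} (hR : BaireMeasurableSet R) (hO : IsOpen O)
    (h : ¬ IsMeagre (R ∩ O)) :
    ∃ O', IsOpen O' ∧ O'.Nonempty ∧ O' ⊆ O ∧ IsMeagre (O' \ R) := by
  obtain ⟨W, hW, hRW⟩ := hR.residualEq_isOpen
  have hM : IsMeagre {y | ¬ (y ∈ R ↔ y ∈ W)} := by
    refine mem_of_superset (eventuallyEq_set.1 hRW) fun y hy => ?_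
    simpa using hy
  refine ⟨W ∩ O, hW.inter hO, ?_, inter_subset_right, hM.mono fun y hy => ?_⟩
  · obtain ⟨y, hy, hy'⟩ := exists_of_not_meagre h hM
    simp only [mem_ofPred_eq, not_not] at hy'
    exact ⟨y, hy'.1 hy.1, hy.2⟩
  · exact fun hh => hy.2 (hh.2 hy.1.1)

/-- The uniformization lemma: from a countable colouring on a product of two everywhere
non-meagre sets to a Baire measurable relation that is comeagre on an open set. -/
theorem rel_lemma [SecondCountableTopology Z] {ι : Type*} [Countable ι] {R : ι → Set (Y × Z)}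
    (hR : ∀ i, BaireMeasurableSet (R i)) {S₁ : Set Y} {S₂ : Set Z} {O : Set (Y × Z)}
    (hO : IsOpen O) (hne : O.Nonempty) (hfat : ∀ p ∈ O, p.1 ∈ fat S₁ ∧ p.2 ∈ fat S₂)
    (hcol : ∀ u ∈ S₁, ∃ N, IsMeagre N ∧ ∀ v ∈ S₂, v ∉ N → ∃ i, (u, v) ∈ R i) :
    ∃ i O', IsOpen O' ∧ O'.Nonempty ∧ O' ⊆ O ∧ IsMeagre (O' \ R i) := by
  by_contra hcon
  have hm : ∀ i, IsMeagre (R i ∩ O) := by
    intro i
    by_contra h
    exact hcon ⟨i, exists_open_comeagre (hR i) hO h⟩
  have hM := isMeagre_iUnion hm
  obtain ⟨⟨u₀, v₀⟩, h₀⟩ := hne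
  obtain ⟨U, V, hU, hV, hu, hv, hUV⟩ := isOpen_prod_iff.1 hO u₀ v₀ h₀
  have h1 : ¬ IsMeagre (S₁ ∩ U) :=
    fat_spec hU ⟨u₀, hu⟩ fun u hu' => (hfat (u, v₀) (hUV ⟨hu', hv⟩)).1
  have h2 : ¬ IsMeagre (S₂ ∩ V) :=
    fat_spec hV ⟨v₀, hv⟩ fun v hv' => (hfat (u₀, v) (hUV ⟨hu, hv'⟩)).2
  obtain ⟨u, huS, hu'⟩ := exists_of_not_meagre h1 (ku hM)
  simp only [mem_ofPred_eq, not_not] at hu'
  obtain ⟨N, hN, hN'⟩ := hcol u huS.1
  obtain ⟨v, hvS, hv'⟩ := exists_of_not_meagre h2 (hu'.union hN)
  obtain ⟨i, hi⟩ := hN' v hvS.1 fun h => hv' (Or.inr h)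
  exact hv' (Or.inl (mem_iUnion.2 ⟨i, hi, hUV ⟨huS.2, hvS.2⟩⟩))

end General

theorem isOpen_cyl (u : X) (n : ℕ) : IsOpen (cylinder u n) := isOpen_cylinder _ u n

theorem exists_cyl {U : Set X} (hU : IsOpen U) {u : X} (hu : u ∈ U) :
    ∃ n, cylinder u n ⊆ U := by
  obtain ⟨W, ⟨y, n, rfl⟩, hW, hWU⟩ :=
    (isTopologicalBasis_cylinders (fun _ : ℕ => Bool)).exists_subset_of_mem_open hu hU
  exact ⟨n, (mem_cylinder_iff_eq.1 hW).symm ▸ hWU⟩

theorem exists_cyl₂ {O : Set (X × X)} (hO : IsOpen O) {u v : X} (h : (u, v) ∈ O) :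
    ∃ n, ∀ u' ∈ cylinder u n, ∀ v' ∈ cylinder v n, (u', v') ∈ O := by
  obtain ⟨U, V, hU, hV, hu, hv, hUV⟩ := isOpen_prod_iff.1 hO u v h
  obtain ⟨n, hn⟩ := exists_cyl hU hu
  obtain ⟨m, hm⟩ := exists_cyl hV hv
  exact ⟨max n m, fun u' hu' v' hv' => hUV ⟨hn (cylinder_anti _ (le_max_left _ _) hu'),
    hm (cylinder_anti _ (le_max_right _ _) hv')⟩⟩

theorem not_meagre_cyl (u : X) (n : ℕ) : ¬ IsMeagre (cylinder u n) :=
  not_isMeagre_of_isOpen (isOpen_cyl u n) ⟨u, self_mem_cylinder u n⟩

theorem res_eq_of_mem_cyl {u v : X} {n : ℕ} (h : v ∈ cylinder u n) : res v n = res u n :=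
  res_congr fun i hi => h i hi

theorem isLocallyConstant_res (k : ℕ) : IsLocallyConstant fun B : X => res B k := by
  rw [IsLocallyConstant.iff_exists_open]
  exact fun u => ⟨cylinder u k, isOpen_cyl u k, self_mem_cylinder u k,
    fun v hv => res_eq_of_mem_cyl hv⟩

/-- a set of reals is nowhere dense if every cylinder has a sub-cylinder missing it -/
theorem meagre_of_cyl {S : Set X} (h : ∀ u n, ∃ v ∈ cylinder u n, ∃ m, Disjoint (cylinder v m) S) :
    IsMeagre S := by
  refine IsNowhereDense.isMeagre ?_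
  rw [IsNowhereDense, eq_empty_iff_forall_notMem]
  intro u hu
  obtain ⟨n, hn⟩ := exists_cyl isOpen_interior hu
  obtain ⟨v, hv, m, hm⟩ := h u n
  have : v ∈ closure S := interior_subset (hn hv)
  obtain ⟨w, hw, hw'⟩ := mem_closure_iff.1 this _ (isOpen_cyl v m) (self_mem_cylinder v m)
  exact Set.disjoint_left.1 hm hw hw'

theorem meagre_singleton (u : X) : IsMeagre ({u} : Set X) := by
  refine meagre_of_cyl fun v n => ⟨Function.update v n (!u n), update_mem_cylinder _ _ _, n + 1, ?_⟩
  rw [Set.disjoint_singleton_right]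
  intro h
  have := h n (Nat.lt_succ_self n)
  simp at this

theorem countable_tl (B : X) : {A | TL A B}.Countable := by
  have : {A | TL A B} = ⋃ f : Fn, {A | Lim f.1 B A} := by
    ext A
    simp [TL]
  rw [this]
  exact countable_iUnion fun f => Set.Subsingleton.countable fun A hA A' hA' => Lim.unique hA hA'

theorem meagre_tl (B : X) : IsMeagre {A | TL A B} := by
  have := isMeagre_biUnion (countable_tl B) fun A _ => meagre_singleton A
  exact this.mono fun A hA => mem_iUnion₂.2 ⟨A, hA, mem_singleton A⟩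

/-! ### measurability -/

theorem measurableSet_res₂ (P : List Bool → List Bool → Prop) (k m : ℕ) :
    MeasurableSet {p : X × X | P (res p.1 k) (res p.2 m)} := by
  have h : IsLocallyConstant fun p : X × X => (res p.1 k, res p.2 m) :=
    ((isLocallyConstant_res k).comp_continuous continuous_fst).prodMk
      ((isLocallyConstant_res m).comp_continuous continuous_snd)
  exact (h {q | P q.1 q.2}).measurableSet

theorem measurableSet_lim (f : List Bool → List Bool) :
    MeasurableSet {p : X × X | Lim f p.1 p.2} := by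
  have : {p : X × X | Lim f p.1 p.2} =
      (⋂ k, ⋃ m, {p : X × X | (f (res p.1 k)).length = m ∧ f (res p.1 k) = res p.2 m}) ∩
      ⋂ N, ⋃ K, ⋂ k, {p : X × X | k ≥ K → N ≤ (f (res p.1 k)).length ∧ res p.2 0 = res p.2 0} := by
    ext p
    simp [Lim]
  rw [this]
  refine MeasurableSet.inter (MeasurableSet.iInter fun k => MeasurableSet.iUnion fun m => ?_)
    (MeasurableSet.iInter fun N => MeasurableSet.iUnion fun K => MeasurableSet.iInter fun k => ?_)
  · exact measurableSet_res₂ (fun a b => (f a).length = m ∧ f a = b) k m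
  · exact measurableSet_res₂ (fun a b => k ≥ K → N ≤ (f a).length ∧ b = b) k 0

theorem measurableSet_tl : MeasurableSet {p : X × X | TL p.2 p.1} := by
  have : {p : X × X | TL p.2 p.1} = ⋃ f : Fn, {p : X × X | Lim f.1 p.1 p.2} := by
    ext p
    simp [TL]
  rw [this]
  exact MeasurableSet.iUnion fun f => measurableSet_lim f.1

theorem Lim.meas {α : Type*} [MeasurableSpace α] (f : List Bool → List Bool) {g h : α → X}
    (hg : Measurable g) (hh : Measurable h) : MeasurableSet {p | Lim f (g p) (h p)} :=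
  (hg.prodMk hh) (measurableSet_lim f)

theorem TL.meas {α : Type*} [MeasurableSpace α] {g h : α → X}
    (hg : Measurable g) (hh : Measurable h) : MeasurableSet {p | TL (h p) (g p)} :=
  (hg.prodMk hh) measurableSet_tl

theorem meas_join {α : Type*} [MeasurableSpace α] {g h : α → X}
    (hg : Measurable g) (hh : Measurable h) : Measurable fun p => join (g p) (h p) := by
  refine measurable_pi_lambda _ fun n => ?_
  unfold join
  cases n.bodd
  · exact (measurable_pi_apply _).comp hg
  · exact (measurable_pi_apply _).comp hh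

open Classical in
/-- the total Borel function attached to a string transformer -/
noncomputable def lim (f : List Bool → List Bool) (B : X) : X :=
  fun n => decide (∃ k, (f (res B k))[n]? = some true)

theorem Lim.lim_eq {f : List Bool → List Bool} {B A : X} (h : Lim f B A) : lim f B = A := by
  classical
  funext n
  unfold lim
  cases hA : A n
  · refine decide_eq_false fun ⟨k, hk⟩ => ?_
    have := h.sound hk
    rw [hA] at this
    exact absurd this (by simp)
  · obtain ⟨K, hK⟩ := h.ev n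
    exact decide_eq_true ⟨K, hA ▸ hK K le_rfl⟩

theorem meas_decide {α : Type*} [MeasurableSpace α] {P : α → Prop} [DecidablePred P]
    (h : MeasurableSet {p | P p}) : Measurable fun p => decide (P p) := by
  refine measurable_to_bool ?_
  convert h using 1
  ext p
  simp

theorem meas_lim (f : List Bool → List Bool) : Measurable (lim f) := by
  classical
  refine measurable_pi_lambda _ fun n => ?_
  refine meas_decide (P := fun B => ∃ k, (f (res B k))[n]? = some true) ?_
  rw [ofPred_exists]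
  exact MeasurableSet.iUnion fun k =>
    (isLocallyConstant_res k {σ | (f σ)[n]? = some true}).measurableSet

/-! ### cone avoidance -/

theorem join_congr {A A' B B' : X} {k : ℕ} (h : ∀ i < k, A i = A' i) (h' : ∀ i < k, B i = B' i) :
    res (join A B) k = res (join A' B') k := by
  refine res_congr fun i hi => ?_
  have : i.div2 < k := by rw [Nat.div2_val]; omega
  simp only [join, h _ this, h' _ this]

theorem meagre_cone {b C : X} (h : ¬ TL b C) : IsMeagre {u | TL b (join C u)} := by
  have : {u | TL b (join C u)} = ⋃ f : Fn, {u | Lim f.1 (join C u) b} := by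
    ext u
    simp [TL]
  rw [this]
  refine isMeagre_iUnion fun ⟨f, hf⟩ => meagre_of_cyl fun u n => ?_
  by_contra hcon
  push Not at hcon
  apply h
  -- search over strings extending `res u n`
  let J : List Bool → List Bool → List Bool := fun σ τ =>
    (List.range σ.length).map fun i => cond i.bodd (τ.getD i.div2 false) (σ.getD i.div2 false)
  have hJ : Primrec₂ J := by
    refine Primrec.list_map (Primrec.list_range.comp (Primrec.list_length.comp Primrec.fst)) ?_
    exact Primrec.cond (Primrec.nat_bodd.comp Primrec.snd)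
      ((Primrec.list_getD false).comp (Primrec.snd.comp Primrec.fst)
        (Primrec.nat_div2.comp Primrec.snd))
      ((Primrec.list_getD false).comp (Primrec.fst.comp Primrec.fst)
        (Primrec.nat_div2.comp Primrec.snd))
  have hJe : ∀ k τ, J (res C k) τ = res (join C fun i => τ.getD i false) k := by
    intro k τ
    simp only [J, length_res]
    refine List.map_congr_left fun i hi => ?_
    have : i.div2 < k := by have := List.mem_range.1 hi; rw [Nat.div2_val]; omega
    simp only [join, getD_res _ this]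
  let d : ℕ → List Bool := fun s => res u n ++ (Encodable.decode (α := List Bool) s).getD []
  have hd : Primrec d := Primrec.list_append.comp (Primrec.const _)
    (Primrec.option_getD.comp Primrec.decode (Primrec.const []))
  refine TL.of_sred (w := fun σ q => (f (J σ (d q.1)))[q.2]?) ?_ ⟨?_, ?_⟩
  · exact Primrec.list_getElem?.comp (hf.comp (hJ.comp Primrec.fst
      (hd.comp (Primrec.fst.comp Primrec.snd)))) (Primrec.snd.comp Primrec.snd)
  · intro k s m v hv
    simp only [hJe] at hv
    have hmem : (fun i => (d s).getD i false) ∈ cylinder u n := by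
      intro i hi
      simp only [d]
      rw [List.getD_append _ _ _ _ (by simpa using hi), getD_res _ hi]
    obtain ⟨y, hy, hy'⟩ := Set.not_disjoint_iff.1 (hcon _ hmem k)
    rw [join_congr (A' := C) (B' := y) (fun _ _ => rfl) fun i hi => (hy i hi).symm] at hv
    exact Lim.sound hy' hv
  · intro m
    obtain ⟨y, hy, hy'⟩ := Set.not_disjoint_iff.1 (hcon u (self_mem_cylinder u n) n)
    obtain ⟨K, hK⟩ := Lim.ev hy' m
    refine ⟨K, Encodable.encode ((res y (n + K)).drop n), ?_⟩
    have e : d (Encodable.encode ((res y (n + K)).drop n)) = res y (n + K) := by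
      simp only [d, Encodable.encodek, Option.getD_some]
      rw [← res_eq_of_mem_cyl hy]
      have := take_res y n (n + K)
      rw [min_eq_left (Nat.le_add_right n K)] at this
      rw [← this, List.take_append_drop]
    simp only [hJe, e]
    rw [join_congr (A' := C) (B' := y) (fun _ _ => rfl) fun i hi => getD_res _ (by omega)]
    exact hK K le_rfl

theorem exists_ext {b C : X} (h : ¬ TL b C) {S : Set X} (hS : ¬ IsMeagre S) :
    ∃ u ∈ S, ∃ C', ¬ TL b C' ∧ TL C C' ∧ TL u C' := by
  obtain ⟨u, hu, hu'⟩ := exists_of_not_meagre hS (meagre_cone h)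
  exact ⟨u, hu, join C u, hu', TL.left _ _, TL.right _ _⟩

theorem exists_ext_fin {ι : Type*} [Finite ι] {b C : X} (h : ¬ TL b C) {S : ι → Set X}
    (hS : ∀ i, ¬ IsMeagre (S i)) :
    ∃ r : ι → X, (∀ i, r i ∈ S i) ∧ ∃ C', ¬ TL b C' ∧ TL C C' ∧ ∀ i, TL (r i) C' := by
  classical
  have key : ∀ s : Finset ι, ∃ C', ¬ TL b C' ∧ TL C C' ∧ ∀ i ∈ s, ∃ u ∈ S i, TL u C' := by
    intro s
    induction s using Finset.induction_on with
    | empty => exact ⟨C, h, TL.refl _, by simp⟩
    | insert a s _ ih =>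
      obtain ⟨C', h1, h2, h3⟩ := ih
      obtain ⟨u, hu, C'', h4, h5, h6⟩ := exists_ext h1 (hS a)
      refine ⟨C'', h4, h2.trans h5, fun i hi => ?_⟩
      rcases Finset.mem_insert.1 hi with rfl | hi
      · exact ⟨u, hu, h6⟩
      · obtain ⟨v, hv, hv'⟩ := h3 i hi
        exact ⟨v, hv, hv'.trans h5⟩
  have := Fintype.ofFinite ι
  obtain ⟨C', h1, h2, h3⟩ := key Finset.univ
  choose r hr hr' using fun i => h3 i (Finset.mem_univ i)
  exact ⟨r, hr, C', h1, h2, hr'⟩

end Vale.Agent.P327
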